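import Mathlib.LinearAlgebra.Matrix.SchurComplement
import Mathlib.LinearAlgebra.Matrix.PosDef
import Mathlib.LinearAlgebra.Matrix.Trace
import Mathlib.Analysis.InnerProductSpace.Basic
import Mathlib.Algebra.Order.Chebyshev

namespace Vale.Agent.P252

open Matrix

variable {n : ℕ}

/-- matrices spanned by the identity and the rank one matrices built from `x` and `e` -/
def Mf (x e : Fin n → ℝ) (α β γ γ' δ : ℝ) : Matrix (Fin n) (Fin n) ℝ :=
  α • (1 : Matrix (Fin n) (Fin n) ℝ) + β • vecMulVec x x + γ • vecMulVec e x +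
    γ' • vecMulVec x e + δ • vecMulVec e e

theorem Mf_mul {x e : Fin n → ℝ} {ρ : ℝ} (hxx : x ⬝ᵥ x = ρ) (hxe : x ⬝ᵥ e = 0) (hee : e ⬝ᵥ e = 1)
    (α β γ γ' δ α2 β2 γ2 γ2' δ2 : ℝ) :
    Mf x e α β γ γ' δ * Mf x e α2 β2 γ2 γ2' δ2 =
      Mf x e (α * α2) (α * β2 + β * α2 + β * ρ * β2 + γ' * γ2)
        (α * γ2 + γ * α2 + γ * ρ * β2 + δ * γ2) (α * γ2' + γ' * α2 + β * ρ * γ2' + γ' * δ2)
        (α * δ2 + δ * α2 + γ * ρ * γ2' + δ * δ2) := by
  have hex : e ⬝ᵥ x = 0 := by rw [dotProduct_comm, hxe]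
  simp only [Mf, Matrix.add_mul, Matrix.mul_add, Matrix.smul_mul, Matrix.mul_smul, Matrix.one_mul,
    Matrix.mul_one, vecMulVec_mul_vecMulVec, hxx, hxe, hee, hex, vecMulVec_smul]
  module

theorem Mf_transpose (x e : Fin n → ℝ) (α β γ γ' δ : ℝ) :
    (Mf x e α β γ γ' δ)ᵀ = Mf x e α β γ' γ δ := by
  simp only [Mf, transpose_add, transpose_smul, transpose_one, transpose_vecMulVec]
  abel

theorem Mf_trace {x e : Fin n → ℝ} {ρ : ℝ} (hxx : x ⬝ᵥ x = ρ) (hxe : x ⬝ᵥ e = 0)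
    (hee : e ⬝ᵥ e = 1) (α β γ γ' δ : ℝ) :
    (Mf x e α β γ γ' δ).trace = α * n + β * ρ + δ := by
  have hex : e ⬝ᵥ x = 0 := by rw [dotProduct_comm, hxe]
  simp [Mf, trace_vecMulVec, hxx, hxe, hee, hex]

theorem Mf_one (x e : Fin n → ℝ) : Mf x e 1 0 0 0 0 = 1 := by simp [Mf]

theorem det_one_add_smul_vecMulVec (c : ℝ) (u v : Fin n → ℝ) :
    det (1 + c • vecMulVec u v) = 1 + c * (v ⬝ᵥ u) := by
  rw [← smul_vecMulVec, vecMulVec_eq Unit, det_one_add_replicateCol_mul_replicateRow]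
  simp

theorem Mf_det {x e : Fin n → ℝ} {ρ : ℝ} (hxx : x ⬝ᵥ x = ρ) (hxe : x ⬝ᵥ e = 0) (hee : e ⬝ᵥ e = 1)
    {α d : ℝ} (hα : α ≠ 0) (hd : d ≠ 0) (β γ : ℝ) :
    (Mf x e α β γ γ (d - α)).det = α ^ n * (d / α) * ((α + (β - γ ^ 2 / d) * ρ) / α) := by
  have hex : e ⬝ᵥ x = 0 := by rw [dotProduct_comm, hxe]
  have h : Mf x e α β γ γ (d - α) = Mf x e 1 0 0 (γ / d) 0 * (Mf x e α 0 0 0 0 *
      (Mf x e 1 0 0 0 ((d - α) / α) * (Mf x e 1 ((β - γ ^ 2 / d) / α) 0 0 0 *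
        Mf x e 1 0 (γ / d) 0 0))) := by
    simp only [Mf_mul hxx hxe hee]
    congr 1 <;> field_simp <;> ring
  rw [h]
  simp only [det_mul]
  have h1 : (Mf x e 1 0 0 (γ / d) 0).det = 1 := by
    simp only [Mf, one_smul, zero_smul, add_zero]
    rw [det_one_add_smul_vecMulVec, hex]; simp
  have h2 : (Mf x e α 0 0 0 0).det = α ^ n := by simp [Mf]
  have h3 : (Mf x e 1 0 0 0 ((d - α) / α)).det = d / α := by
    simp only [Mf, one_smul, zero_smul, add_zero]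
    rw [det_one_add_smul_vecMulVec, hee]; field_simp; ring
  have h4 : (Mf x e 1 ((β - γ ^ 2 / d) / α) 0 0 0).det = (α + (β - γ ^ 2 / d) * ρ) / α := by
    simp only [Mf, one_smul, zero_smul, add_zero]
    rw [det_one_add_smul_vecMulVec, hxx]; field_simp
  have h5 : (Mf x e 1 0 (γ / d) 0 0).det = 1 := by
    simp only [Mf, one_smul, zero_smul, add_zero]
    rw [det_one_add_smul_vecMulVec, hxe]; simp
  rw [h1, h2, h3, h4, h5]; ring

theorem Mf_quad (x e y : Fin n → ℝ) (α β γ γ' δ : ℝ) :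
    y ⬝ᵥ (Mf x e α β γ γ' δ *ᵥ y) = α * (y ⬝ᵥ y) + β * (x ⬝ᵥ y) ^ 2 +
      (γ + γ') * (x ⬝ᵥ y) * (e ⬝ᵥ y) + δ * (e ⬝ᵥ y) ^ 2 := by
  simp only [Mf, add_mulVec, smul_mulVec, one_mulVec, vecMulVec_mulVec, dotProduct_add,
    dotProduct_smul, smul_eq_mul, op_smul_eq_smul, dotProduct_comm y x, dotProduct_comm y e]
  ring

theorem Mf_posDef {x e : Fin n → ℝ} {ρ : ℝ} (hxx : x ⬝ᵥ x = ρ) (hxe : x ⬝ᵥ e = 0)
    (hee : e ⬝ᵥ e = 1) {α d β γ : ℝ} (hα : 0 < α) (hd : 0 < d)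
    (hr : 0 < α + (β - γ ^ 2 / d) * ρ) : (Mf x e α β γ γ (d - α)).PosDef := by
  have hex : e ⬝ᵥ x = 0 := by rw [dotProduct_comm, hxe]
  apply PosDef.of_dotProduct_mulVec_pos
  · rw [IsHermitian, conjTranspose_eq_transpose_of_trivial, Mf_transpose]
  intro y hy
  rw [star_trivial, Mf_quad]
  set s := e ⬝ᵥ y with hs
  set p := x ⬝ᵥ y with hp
  set z : Fin n → ℝ := y - s • e with hz
  have hzz : z ⬝ᵥ z = y ⬝ᵥ y - s ^ 2 := by
    simp only [hz, sub_dotProduct, dotProduct_sub, smul_dotProduct, dotProduct_smul, hee,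
      dotProduct_comm y e, ← hs, smul_eq_mul]
    ring
  have hxz : x ⬝ᵥ z = p := by
    simp only [hz, dotProduct_sub, dotProduct_smul, hxe, smul_eq_mul, ← hp]; ring
  have hcs : p ^ 2 ≤ ρ * (z ⬝ᵥ z) := by
    rw [← hxz, ← hxx]
    have := Finset.sum_mul_sq_le_sq_mul_sq Finset.univ x z
    simpa [dotProduct, sq] using this
  have hz0 : 0 ≤ z ⬝ᵥ z := Finset.sum_nonneg fun i _ => mul_self_nonneg _
  have hρ : 0 ≤ ρ := by rw [← hxx]; exact Finset.sum_nonneg fun i _ => mul_self_nonneg _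
  have e1 : α * (y ⬝ᵥ y) + β * p ^ 2 + (γ + γ) * p * s + (d - α) * s ^ 2 =
      (α * (z ⬝ᵥ z) + (β - γ ^ 2 / d) * p ^ 2) + d * (s + γ / d * p) ^ 2 := by
    rw [hzz]; field_simp; ring
  rw [e1]
  set b' := β - γ ^ 2 / d
  rcases hz0.eq_or_lt with h0 | h0
  · have hp0 : p = 0 := by
      rw [← h0, mul_zero] at hcs
      exact pow_eq_zero_iff two_ne_zero |>.1 (le_antisymm hcs (sq_nonneg p))
    have hz' : z = 0 := dotProduct_self_eq_zero.1 h0.symm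
    have hs0 : s ≠ 0 := by
      intro h
      apply hy
      rw [hz, h] at hz'
      simpa using hz'
    rw [← h0, hp0]
    have : 0 < s ^ 2 := by positivity
    simpa using mul_pos hd this
  · have k1 : 0 < α * (z ⬝ᵥ z) + b' * p ^ 2 := by
      rcases le_total 0 b' with hb | hb
      · have := mul_pos hα h0
        have := mul_nonneg hb (sq_nonneg p)
        linarith
      · have := mul_pos hr h0
        nlinarith
    have k2 : 0 ≤ d * (s + γ / d * p) ^ 2 := by positivity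
    linarith

end Vale.Agent.P252
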