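import Mathlib.Analysis.Calculus.ContDiff.Defs
import Mathlib.Analysis.SpecialFunctions.Pow.Real
import Mathlib.LinearAlgebra.Matrix.NonsingularInverse

namespace Vale.Agent.P252

/-- The derivative of `f : ℝⁿ → ℝ` at `x` in the direction of the `i`-th coordinate vector. -/
noncomputable def pd {n : ℕ} (i : Fin n) (f : (Fin n → ℝ) → ℝ) (x : Fin n → ℝ) : ℝ :=
  fderiv ℝ f x (Pi.single i 1)

/-- The Hessian matrix `D²f(x)`, with entries `∂ᵢ∂ⱼ f(x)`. -/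
noncomputable def hess {n : ℕ} (f : (Fin n → ℝ) → ℝ) (x : Fin n → ℝ) :
    Matrix (Fin n) (Fin n) ℝ :=
  Matrix.of fun i j => pd i (pd j f) x

/-- The affine maximal equation on all of `ℝⁿ`: `∑ Uⁱʲ ∂ᵢⱼ w = 0`, where
`U = det(D²u) (D²u)⁻¹` and `w = (det D²u)^(-(n+1)/(n+2))`. -/
def SolvesAM {n : ℕ} (u : (Fin n → ℝ) → ℝ) : Prop :=
  ∀ x : Fin n → ℝ,
    ∑ i, ∑ j, ((hess u x).det • (hess u x)⁻¹) i j *
      hess (fun y => (hess u y).det ^ (-(((n : ℝ) + 1) / ((n : ℝ) + 2)))) x i j = 0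

end Vale.Agent.P252
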