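import Mathlib.Analysis.Calculus.ImplicitContDiff
import Mathlib.Analysis.Calculus.ContDiff.Operations
import Mathlib.Analysis.Calculus.ContDiff.Basic

namespace Vale.Agent.P252

open scoped Topology ContDiff
open Filter

/-- A parametric fixed point theorem: an analytic family of maps that is constant at the
parameter `0` has a locally unique analytic branch of fixed points. -/
theorem exists_param_fixed {E : Type*} [NormedAddCommGroup E] [NormedSpace ℝ E] [CompleteSpace E]
    (Φ : ℝ × E → E) (hΦ : ContDiff ℝ ω Φ) (X0 : E) (h0 : ∀ X, Φ (0, X) = X0) :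
    ∃ ψ : ℝ → E, ∃ η > (0 : ℝ), ∃ r > (0 : ℝ),
      (∀ ε, |ε| < η → AnalyticAt ℝ ψ ε ∧ Φ (ε, ψ ε) = ψ ε ∧ ‖ψ ε - X0‖ < r) ∧ ψ 0 = X0 ∧
      (∀ ε X, |ε| < η → ‖X - X0‖ < r → Φ (ε, X) = X → ψ ε = X) := by
  set f : ℝ × E → E := fun p => p.2 - Φ p with hf
  have hfc : ContDiff ℝ ω f := contDiff_snd.sub hΦ
  have cdf : ContDiffAt ℝ ω f (0, X0) := hfc.contDiffAt
  have pn : (ω : ℕ∞ω) ≠ 0 := by simp
  have hder : fderiv ℝ f (0, X0) ∘L ContinuousLinearMap.inr ℝ ℝ E = ContinuousLinearMap.id ℝ E := by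
    have h1 : HasFDerivAt f (fderiv ℝ f (0, X0)) (0, X0) :=
      (cdf.differentiableAt pn).hasFDerivAt
    have h2 : HasFDerivAt (fun X : E => ((0 : ℝ), X)) (ContinuousLinearMap.inr ℝ ℝ E) X0 :=
      (ContinuousLinearMap.inr ℝ ℝ E).hasFDerivAt
    have h3 := h1.comp X0 h2
    have h4 : (f ∘ fun X : E => ((0 : ℝ), X)) = fun X => X - X0 := by
      funext X; simp [hf, h0]
    rw [h4] at h3
    have h5 : HasFDerivAt (fun X : E => X - X0) (ContinuousLinearMap.id ℝ E) X0 :=
      (hasFDerivAt_id X0).sub_const X0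
    exact h3.unique h5
  have if₂ : (fderiv ℝ f (0, X0) ∘L ContinuousLinearMap.inr ℝ ℝ E).IsInvertible := by
    rw [hder]; exact ContinuousLinearMap.isInvertible_equiv (f := ContinuousLinearEquiv.refl ℝ E)
  have hf0 : f (0, X0) = 0 := by simp [hf, h0]
  set ψ := cdf.implicitFunction pn if₂ with hψ
  have hψ0 : ψ 0 = X0 := cdf.implicitFunction_apply_self pn if₂
  have hA : AnalyticAt ℝ ψ 0 := (cdf.contDiffAt_implicitFunction pn if₂).analyticAt
  have hE := cdf.eventually_apply_implicitFunction pn if₂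
  have hU := cdf.eventually_apply_eq_iff_implicitFunction pn if₂
  rw [hf0] at hE hU
  obtain ⟨r, hr, hball⟩ := Metric.eventually_nhds_iff.1 hU
  have hC : ∀ᶠ ε in 𝓝 (0 : ℝ), ‖ψ ε - X0‖ < r := by
    have := hA.continuousAt.tendsto
    rw [hψ0] at this
    have h2 := this.eventually (Metric.ball_mem_nhds X0 hr)
    filter_upwards [h2] with ε hε
    simpa [dist_eq_norm] using hε
  have hall := (hA.eventually_analyticAt.and (hE.and hC))
  obtain ⟨η, hη, hη'⟩ := Metric.eventually_nhds_iff.1 hall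
  refine ⟨ψ, min η r, lt_min hη hr, r, hr, ?_, hψ0, ?_⟩
  · intro ε hε
    have := hη' (y := ε) (by simpa [Real.dist_eq] using lt_of_lt_of_le hε (min_le_left _ _))
    refine ⟨this.1, ?_, this.2.2⟩
    have h := this.2.1
    simp only [hf] at h
    exact (sub_eq_zero.1 h).symm
  · intro ε X hε hX hfix
    have hd : dist ((ε, X) : ℝ × E) (0, X0) < r := by
      rw [Prod.dist_eq]
      refine max_lt ?_ ?_
      · simpa [Real.dist_eq] using lt_of_lt_of_le hε (min_le_right _ _)
      · simpa [dist_eq_norm] using hX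
    have := (hball hd).1 (by simp [hf, hfix])
    simpa using this

end Vale.Agent.P252
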