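import Vale.Agent.P252.Local
import Mathlib.MeasureTheory.Integral.IntervalIntegral.IntegrationByParts
import Mathlib.Analysis.Calculus.FDeriv.Analytic

namespace Vale.Agent.P252

open scoped Topology ContDiff
open Filter Set MeasureTheory

theorem hasDerivAt_scaled_integral (j : ℕ) (h : ℝ → ℝ) (η : ℝ)
    (hc : ∀ ε, |ε| < η → ContinuousAt h ε) (r : ℝ) (hr : 0 < r) (hrη : r ^ 2 < η) :
    HasDerivAt (fun r : ℝ => r ^ (j + 1) * ∫ s in (0 : ℝ)..1, s ^ j * h (s ^ 2 * r ^ 2))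
      (r ^ j * h (r ^ 2)) r := by
  set f : ℝ → ℝ := fun σ => σ ^ j * h (σ ^ 2) with hf
  have e : (fun r : ℝ => r ^ (j + 1) * ∫ s in (0 : ℝ)..1, s ^ j * h (s ^ 2 * r ^ 2)) =
      fun r => ∫ σ in (0 : ℝ)..r, f σ := by
    funext r
    have := intervalIntegral.smul_integral_comp_mul_right (a := 0) (b := 1) f r
    simp only [zero_mul, one_mul, smul_eq_mul] at this
    rw [← this, pow_succ', mul_assoc, ← intervalIntegral.integral_const_mul]
    congr 2
    funext s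
    simp only [hf, mul_pow]
    ring
  rw [e]
  have hU : IsOpen {σ : ℝ | σ ^ 2 < η} := isOpen_lt (by fun_prop) continuous_const
  have hcont : ContinuousOn f {σ : ℝ | σ ^ 2 < η} := by
    intro σ hσ
    apply ContinuousAt.continuousWithinAt
    have h1 : ContinuousAt h (σ ^ 2) := hc _ (by rwa [abs_of_nonneg (sq_nonneg σ)])
    have h2 : ContinuousAt (fun σ : ℝ => h (σ ^ 2)) σ :=
      ContinuousAt.comp (f := fun σ : ℝ => σ ^ 2) h1 (by fun_prop)
    exact (by fun_prop : ContinuousAt (fun σ : ℝ => σ ^ j) σ).mul h2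
  apply intervalIntegral.integral_hasDerivAt_right
  · apply ContinuousOn.intervalIntegrable
    apply hcont.mono
    intro σ hσ
    rw [uIcc_of_le hr.le] at hσ
    exact lt_of_le_of_lt (pow_le_pow_left₀ hσ.1 hσ.2 2) hrη
  · exact hcont.stronglyMeasurableAtFilter hU r hrη
  · exact hcont.continuousAt (hU.mem_nhds hrη)

theorem eq_at_zero_of_eq_right {f g : ℝ → ℝ} {η : ℝ} (hη : 0 < η) (hf : ContinuousAt f 0)
    (hg : ContinuousAt g 0) (h : ∀ ρ, 0 < ρ → ρ < η → f ρ = g ρ) : f 0 = g 0 := by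
  have h1 : Tendsto f (𝓝[>] 0) (𝓝 (f 0)) := hf.tendsto.mono_left nhdsWithin_le_nhds
  have h2 : Tendsto g (𝓝[>] 0) (𝓝 (g 0)) := hg.tendsto.mono_left nhdsWithin_le_nhds
  have h3 : f =ᶠ[𝓝[>] 0] g := by
    filter_upwards [Ioo_mem_nhdsGT hη] with ρ hρ using h ρ hρ.1 hρ.2
  exact tendsto_nhds_unique (h1.congr' h3) h2

/-- auxiliary rational function in the reduced planar system -/
noncomputable def Jf (M v w : ℝ) : ℝ :=
  ((M + 3) * ((M + 2) * w + v - 1) / (v + M / 2) - 1) / (M + 2)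

theorem local_ode (m : ℕ) (hm : 1 ≤ m) :
    ∃ a b : ℝ → ℝ, ∃ η > (0 : ℝ), a 0 = 1 ∧
      (∀ ε, |ε| < η → AnalyticAt ℝ a ε ∧ AnalyticAt ℝ b ε) ∧
      ∀ ρ, 0 ≤ ρ → ρ < η → HasDerivAt a (a ρ * (b ρ - a ρ) / 2) ρ ∧
        HasDerivAt (fun ρ => 1 + ρ * b ρ)
          ((1 + ρ * b ρ) * (-(m * b ρ) + a ρ * Jf m (ρ * a ρ) (1 + ρ * b ρ)) / 2) ρ := by
  obtain ⟨a, b, q, η, hη, ha0, H⟩ := exists_integral_solution m
  have hM : (0 : ℝ) < m := by exact_mod_cast hm
  have hnear : ∀ r : ℝ, r ^ 2 < η → ∀ᶠ s in 𝓝 r, |s ^ 2| < η := by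
    intro r hr
    have hU : IsOpen {σ : ℝ | σ ^ 2 < η} := isOpen_lt (by fun_prop) continuous_const
    filter_upwards [hU.mem_nhds hr] with s hs
    rwa [abs_of_nonneg (sq_nonneg s)]
  have hda : ∀ ρ, 0 < ρ → ρ < η → deriv a ρ = a ρ * (b ρ - a ρ) / 2 := by
    intro ρ h0 h1
    obtain ⟨r, hr, rfl⟩ : ∃ r : ℝ, 0 < r ∧ ρ = r ^ 2 :=
      ⟨√ρ, Real.sqrt_pos.2 h0, (Real.sq_sqrt h0.le).symm⟩
    have k1 := hasDerivAt_scaled_integral 1 (fun ρ => a ρ * (b ρ - a ρ)) η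
      (fun ε hε => (H ε hε).1.continuousAt.mul
        ((H ε hε).2.1.continuousAt.sub (H ε hε).1.continuousAt)) r hr h1
    have k2 : HasDerivAt (fun s : ℝ => a (s ^ 2)) (deriv a (r ^ 2) * (2 * r)) r := by
      have : HasDerivAt a (deriv a (r ^ 2)) (r ^ 2) :=
        (H _ (by rwa [abs_of_pos h0])).1.differentiableAt.hasDerivAt
      have h2 : HasDerivAt (fun s : ℝ => s ^ 2) (2 * r) r := by
        simpa using hasDerivAt_pow 2 r
      exact HasDerivAt.comp (h := fun s : ℝ => s ^ 2) r this h2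
    have k3 := (k1.const_add 1).congr_of_eventuallyEq (f₁ := fun s : ℝ => a (s ^ 2)) (by
      filter_upwards [hnear r h1] with s hs
      exact (H _ hs).2.2.2.1)
    have k4 := k2.unique k3
    have : r ≠ 0 := hr.ne'
    field_simp
    apply mul_left_cancel₀ this
    linear_combination k4
  have hdb : ∀ ρ, 0 < ρ → ρ < η →
      (m + 2) * b ρ + 2 * ρ * deriv b ρ = Rt m ρ (a ρ) (b ρ) (q ρ) := by
    intro ρ h0 h1
    obtain ⟨r, hr, rfl⟩ : ∃ r : ℝ, 0 < r ∧ ρ = r ^ 2 :=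
      ⟨√ρ, Real.sqrt_pos.2 h0, (Real.sq_sqrt h0.le).symm⟩
    have k1 := hasDerivAt_scaled_integral (m + 1) (fun ρ => Rt m ρ (a ρ) (b ρ) (q ρ)) η
      (fun ε hε => by
        have := (H ε hε).1.continuousAt
        have := (H ε hε).2.1.continuousAt
        have := (H ε hε).2.2.1.continuousAt
        unfold Rt
        fun_prop) r hr h1
    have k2 : HasDerivAt (fun s : ℝ => b (s ^ 2)) (deriv b (r ^ 2) * (2 * r)) r := by
      have : HasDerivAt b (deriv b (r ^ 2)) (r ^ 2) :=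
        (H _ (by rwa [abs_of_pos h0])).2.1.differentiableAt.hasDerivAt
      have h2 : HasDerivAt (fun s : ℝ => s ^ 2) (2 * r) r := by
        simpa using hasDerivAt_pow 2 r
      exact HasDerivAt.comp (h := fun s : ℝ => s ^ 2) r this h2
    have k2' := (hasDerivAt_pow (m + 1 + 1) r).mul k2
    have k3 := k1.congr_of_eventuallyEq (f₁ := fun s : ℝ => s ^ (m + 1 + 1) * b (s ^ 2)) (by
      filter_upwards [hnear r h1] with s hs
      rw [(H _ hs).2.2.2.2.2])
    have k4 := k2'.unique k3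
    have : r ^ (m + 1) ≠ 0 := by positivity
    apply mul_left_cancel₀ this
    simp only [Nat.add_sub_cancel, Nat.cast_add, Nat.cast_one] at k4
    rw [← k4]
    ring
  have h00 : |(0 : ℝ)| < η := by simpa using hη
  have hda' : ∀ ρ, 0 ≤ ρ → ρ < η → deriv a ρ = a ρ * (b ρ - a ρ) / 2 := by
    intro ρ h0 h1
    rcases h0.eq_or_lt with rfl | h0
    · apply eq_at_zero_of_eq_right hη (f := deriv a) (g := fun ρ => a ρ * (b ρ - a ρ) / 2)
        (H 0 h00).1.deriv.continuousAt _ hda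
      have := (H 0 h00).1.continuousAt
      have := (H 0 h00).2.1.continuousAt
      fun_prop
    · exact hda ρ h0 h1
  have hdb' : ∀ ρ, 0 ≤ ρ → ρ < η →
      (m + 2) * b ρ + 2 * ρ * deriv b ρ = Rt m ρ (a ρ) (b ρ) (q ρ) := by
    intro ρ h0 h1
    rcases h0.eq_or_lt with rfl | h0
    · have := (H 0 h00).1.continuousAt
      have := (H 0 h00).2.1.continuousAt
      have := (H 0 h00).2.2.1.continuousAt
      have := (H 0 h00).2.1.deriv.continuousAt
      apply eq_at_zero_of_eq_right hη (f := fun ρ => (m + 2) * b ρ + 2 * ρ * deriv b ρ)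
        (g := fun ρ => Rt m ρ (a ρ) (b ρ) (q ρ)) _ _ hdb
      · fun_prop
      · unfold Rt; fun_prop
    · exact hdb ρ h0 h1
  refine ⟨a, b, η, hη, ha0, fun ε hε => ⟨(H ε hε).1, (H ε hε).2.1⟩, ?_⟩
  intro ρ h0 h1
  have hρ : |ρ| < η := by rwa [abs_of_nonneg h0]
  constructor
  · rw [← hda' ρ h0 h1]
    exact (H _ hρ).1.differentiableAt.hasDerivAt
  · have k1 : HasDerivAt b (deriv b ρ) ρ := (H _ hρ).2.1.differentiableAt.hasDerivAt
    have k2 := ((hasDerivAt_id ρ).mul k1).const_add 1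
    have k3 := hdb' ρ h0 h1
    have k4 := (H _ hρ).2.2.2.2.1
    have k5 : q ρ * (ρ * a ρ + m / 2) = 1 := by
      field_simp at k4
      linear_combination k4 / 2
    have k6 : ρ * a ρ + (m : ℝ) / 2 ≠ 0 := by
      intro h; rw [h] at k5; simp at k5
    have k7 : q ρ = 1 / (ρ * a ρ + (m : ℝ) / 2) := by
      rw [eq_div_iff k6]; exact k5
    rw [Rt, k7] at k3
    refine HasDerivAt.congr_deriv k2 ?_
    simp only [Jf, id]
    linear_combination (1 / 2 : ℝ) * k3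

end Vale.Agent.P252
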