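import Mathlib.Analysis.ODE.ExistUnique
import Mathlib.Analysis.Calculus.MeanValue
import Mathlib.Analysis.Calculus.ContDiff.RCLike
import Mathlib.Analysis.Calculus.ContDiff.Deriv
import Mathlib.Analysis.SpecialFunctions.Log.Deriv
import Vale.Agent.P252.LocalODE

namespace Vale.Agent.P252

open scoped Topology ContDiff NNReal
open Filter Set

/-- Global existence for a bounded Lipschitz autonomous vector field. -/
theorem exists_global_solution {E : Type*} [NormedAddCommGroup E] [NormedSpace ℝ E]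
    [CompleteSpace E] (f : E → E) (K L : ℝ≥0) (hK : LipschitzWith K f) (hL : ∀ x, ‖f x‖ ≤ L)
    (x0 : E) : ∃ γ : ℝ → E, γ 0 = x0 ∧ ∀ t, HasDerivAt γ (f (γ t)) t := by
  have hloc : ∀ n : ℕ, ∃ α : ℝ → E, α 0 = x0 ∧ ∀ t ∈ Ioo (-(n : ℝ)) n, HasDerivAt α (f (α t)) t := by
    intro n
    have hn : (0 : ℝ) ≤ n := Nat.cast_nonneg n
    have hpl : IsPicardLindelof (fun _ : ℝ => f) (tmin := -(n : ℝ)) (tmax := n)
        ⟨0, by simp⟩ x0 (L * n) 0 L K :=
      ⟨fun _ _ => hK.lipschitzOnWith, fun _ _ => continuousOn_const, fun _ _ x _ => hL x, by simp⟩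
    obtain ⟨α, h0, h1⟩ := hpl.exists_eq_forall_mem_Icc_hasDerivWithinAt₀
    exact ⟨α, h0, fun t ht => (h1 t (Ioo_subset_Icc_self ht)).hasDerivAt (Icc_mem_nhds ht.1 ht.2)⟩
  choose α h0 h1 using hloc
  have huniq : ∀ n k : ℕ, n ≤ k → ∀ t ∈ Ioo (-(n : ℝ)) n, α n t = α k t := by
    intro n k hnk t ht
    have hnk' : (n : ℝ) ≤ k := by exact_mod_cast hnk
    have hn : (0 : ℝ) < n := by linarith [ht.1, ht.2]
    refine ODE_solution_unique_of_mem_Ioo (v := fun _ => f) (s := fun _ => univ) (K := K)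
      (t₀ := 0) (fun _ _ => hK.lipschitzOnWith) ⟨by linarith, hn⟩
      (fun t ht => ⟨h1 n t ht, trivial⟩)
      (fun t ht => ⟨h1 k t ⟨by linarith [ht.1], by linarith [ht.2]⟩, trivial⟩)
      (by rw [h0, h0]) ht
  have hmem : ∀ t : ℝ, t ∈ Ioo (-((⌈|t|⌉₊ + 1 : ℕ) : ℝ)) ((⌈|t|⌉₊ + 1 : ℕ) : ℝ) := by
    intro t
    have := Nat.le_ceil |t|
    push_cast
    constructor <;> linarith [le_abs_self t, neg_abs_le t]
  refine ⟨fun t => α (⌈|t|⌉₊ + 1) t, h0 _, fun t => ?_⟩
  have hev : (fun t => α (⌈|t|⌉₊ + 1) t) =ᶠ[𝓝 t] α (⌈|t|⌉₊ + 2) := by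
    filter_upwards [Metric.ball_mem_nhds t one_pos] with s hs
    apply huniq _ _ _ s (hmem s)
    have h2 : |s| ≤ |t| + 1 := by
      have := abs_sub_abs_le_abs_sub s t
      rw [Metric.mem_ball, Real.dist_eq] at hs
      linarith
    have h3 : ⌈|s|⌉₊ ≤ ⌈|t|⌉₊ + 1 := by
      rw [← Nat.ceil_add_one (abs_nonneg t)]
      exact Nat.ceil_mono h2
    omega
  have hd := h1 (⌈|t|⌉₊ + 2) t (by
    have := hmem t
    push_cast at this ⊢
    constructor <;> linarith [this.1, this.2])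
  have := hd.congr_of_eventuallyEq hev
  rwa [← hev.self_of_nhds] at this

theorem barrier {f f' : ℝ → ℝ} {c : ℝ} (hf : ∀ t, HasDerivAt f (f' t) t) (h0 : f 0 ≤ c)
    (hb : ∀ t, c < f t → f' t ≤ 0) {t : ℝ} (ht : 0 ≤ t) : f t ≤ c := by
  have H : ∀ r > 0, f t ≤ c + r * (t + 1) := by
    intro r hr
    refine image_le_of_deriv_right_lt_deriv_boundary (a := 0) (b := t) (f' := f')
      (B := fun t => c + r * (t + 1)) (B' := fun _ => r)
      (fun x _ => (hf x).continuousAt.continuousWithinAt)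
      (fun x _ => (hf x).hasDerivWithinAt) (by nlinarith) ?_ ?_ ⟨ht, le_rfl⟩
    · intro x
      simpa using (((hasDerivAt_id x).add_const 1).const_mul r).const_add c
    · intro x hx hfx
      have : c < f x := by rw [hfx]; nlinarith [hx.1]
      exact lt_of_le_of_lt (hb x this) hr
  apply le_of_forall_pos_le_add
  intro ε hε
  have := H (ε / (t + 1)) (by positivity)
  rwa [div_mul_cancel₀ _ (by positivity)] at this

theorem lipschitz_min_exp {c : ℝ} (hc : 0 < c) :
    LipschitzWith c.toNNReal (fun x : ℝ => min (Real.exp x) c) := by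
  have h1 : LipschitzOnWith c.toNNReal Real.exp (Iic (Real.log c)) := by
    apply (convex_Iic _).lipschitzOnWith_of_nnnorm_hasDerivWithin_le (f' := Real.exp)
      (fun x _ => (Real.hasDerivAt_exp x).hasDerivWithinAt)
    intro x hx
    rw [← NNReal.coe_le_coe, coe_nnnorm, Real.norm_eq_abs, abs_of_pos (Real.exp_pos x),
      Real.coe_toNNReal _ hc.le]
    calc Real.exp x ≤ Real.exp (Real.log c) := Real.exp_le_exp.2 hx
      _ = c := Real.exp_log hc
  have h2 : LipschitzWith 1 (fun x : ℝ => min x (Real.log c)) := LipschitzWith.id.min_const _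
  have h3 := h1.comp (h2.lipschitzOnWith (s := univ)) (fun x _ => mem_Iic.2 (min_le_right _ _))
  rw [mul_one, lipschitzOnWith_univ] at h3
  convert h3 using 1
  funext x
  simp only [Function.comp]
  rw [Real.exp_monotone.map_min, Real.exp_log hc]

/-- second component of the reduced planar system in logarithmic variables -/
noncomputable def Gf (M v w : ℝ) : ℝ := M * (1 - w) + v * Jf M v w

theorem Gf_top_nonpos {M v : ℝ} (hM : 9 ≤ M) (h0 : 0 ≤ v) (h1 : v ≤ M / 2) :
    Gf M v (M / 2 - 1) ≤ 0 := by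
  have hv : 0 < v + M / 2 := by linarith
  have hM2 : 0 < M + 2 := by linarith
  have hM0 : 0 < M := by linarith
  have e : Gf M v (M / 2 - 1) = -((M / 2 - v) * (M * (M - 4) * (M + 2) / 2) +
      v * ((M - 9) * (M + 2) * (M - 1) / 2) + (M + 2) * v * (M / 2 - v)) /
        ((M + 2) * (v + M / 2)) := by
    unfold Gf Jf
    field_simp
    ring
  rw [e]
  apply div_nonpos_of_nonpos_of_nonneg _ (by positivity)
  have a1 : 0 ≤ M / 2 - v := by linarith
  have a2 : 0 ≤ M - 4 := by linarith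
  have a3 : 0 ≤ M - 9 := by linarith
  have a4 : 0 ≤ M - 1 := by linarith
  have : 0 ≤ (M / 2 - v) * (M * (M - 4) * (M + 2) / 2) +
      v * ((M - 9) * (M + 2) * (M - 1) / 2) + (M + 2) * v * (M / 2 - v) := by positivity
  linarith

/-- Forward solution of the planar system starting in the invariant box. -/
theorem exists_forward {M : ℝ} (hM : 9 ≤ M) {v0 w0 : ℝ} (hv0 : 0 < v0) (hv1 : v0 ≤ M / 2)
    (hw0 : 0 < w0) (hw1 : w0 ≤ M / 2 - 1) :
    ∃ V W : ℝ → ℝ, V 0 = v0 ∧ W 0 = w0 ∧ ∀ s, 0 ≤ s → 0 < V s ∧ 0 < W s ∧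
      HasDerivAt V (V s * (1 + W s - V s)) s ∧ HasDerivAt W (W s * Gf M (V s) (W s)) s := by
  have hα : 0 < M / 2 := by linarith
  have hβ : 0 < M / 2 - 1 := by linarith
  set Fld : ℝ × ℝ → ℝ × ℝ := fun p => (1 + p.2 - p.1, Gf M p.1 p.2) with hFld
  set Kb : Set (ℝ × ℝ) := Icc 0 (M / 2) ×ˢ Icc 0 (M / 2 - 1) with hKb
  have hKc : IsCompact Kb := isCompact_Icc.prod isCompact_Icc
  have hKv : Convex ℝ Kb := (convex_Icc _ _).prod (convex_Icc _ _)
  have hC : ContDiffOn ℝ 1 Fld Kb := by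
    have hne : ∀ p ∈ Kb, p.1 + M / 2 ≠ 0 := fun p hp => by
      have := hp.1.1
      linarith
    simp only [hFld, Gf, Jf]
    refine ContDiffOn.prodMk (by fun_prop) ?_
    refine ContDiffOn.add (by fun_prop) (ContDiffOn.mul (by fun_prop) ?_)
    refine ContDiffOn.div_const (ContDiffOn.sub ?_ (by fun_prop)) _
    exact ContDiffOn.div (by fun_prop) (by fun_prop) hne
  obtain ⟨K, hK⟩ := hC.exists_lipschitzOnWith one_ne_zero hKv hKc
  obtain ⟨L, hL⟩ := hKc.exists_bound_of_continuousOn hC.continuousOn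
  set cl : ℝ × ℝ → ℝ × ℝ :=
    fun p => (min (Real.exp p.1) (M / 2), min (Real.exp p.2) (M / 2 - 1)) with hcl
  have hclK : ∀ p, cl p ∈ Kb := fun p =>
    ⟨⟨le_min (Real.exp_pos _).le hα.le, min_le_right _ _⟩,
      ⟨le_min (Real.exp_pos _).le hβ.le, min_le_right _ _⟩⟩
  have hclL := ((lipschitz_min_exp hα).comp LipschitzWith.prod_fst).prodMk
    ((lipschitz_min_exp hβ).comp (LipschitzWith.prod_snd (α := ℝ) (β := ℝ)))
  have hLip := hK.comp (hclL.lipschitzOnWith (s := univ)) (fun p _ => hclK p)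
  rw [lipschitzOnWith_univ] at hLip
  have hL0 : 0 ≤ L := le_trans (norm_nonneg _) (hL _ (hclK 0))
  obtain ⟨γ, hγ0, hγ⟩ := exists_global_solution (fun p => Fld (cl p)) _ ⟨L, hL0⟩ hLip
    (fun p => hL _ (hclK p)) (Real.log v0, Real.log w0)
  have hx : ∀ t, HasDerivAt (fun t => (γ t).1) (Fld (cl (γ t))).1 t := fun t =>
    (ContinuousLinearMap.fst ℝ ℝ ℝ).hasFDerivAt.comp_hasDerivAt t (hγ t)
  have hy : ∀ t, HasDerivAt (fun t => (γ t).2) (Fld (cl (γ t))).2 t := fun t =>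
    (ContinuousLinearMap.snd ℝ ℝ ℝ).hasFDerivAt.comp_hasDerivAt t (hγ t)
  have bx : ∀ t, 0 ≤ t → (γ t).1 ≤ Real.log (M / 2) := fun t ht => by
    refine barrier hx ?_ ?_ ht
    · rw [hγ0]; exact Real.log_le_log hv0 hv1
    · intro t ht
      have : M / 2 ≤ Real.exp (γ t).1 := by
        rw [← Real.log_le_iff_le_exp hα]; exact ht.le
      simp only [hFld, hcl, min_eq_right this]
      linarith [min_le_right (Real.exp (γ t).2) (M / 2 - 1)]
  have bY : ∀ t, 0 ≤ t → (γ t).2 ≤ Real.log (M / 2 - 1) := fun t ht => by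
    refine barrier hy ?_ ?_ ht
    · rw [hγ0]; exact Real.log_le_log hw0 hw1
    · intro t ht
      have : M / 2 - 1 ≤ Real.exp (γ t).2 := by
        rw [← Real.log_le_iff_le_exp hβ]; exact ht.le
      simp only [hFld, hcl, min_eq_right this]
      exact Gf_top_nonpos hM (hclK (γ t)).1.1 (hclK (γ t)).1.2
  refine ⟨fun t => Real.exp (γ t).1, fun t => Real.exp (γ t).2, ?_, ?_, ?_⟩
  · simp only [hγ0]; exact Real.exp_log hv0
  · simp only [hγ0]; exact Real.exp_log hw0
  intro s hs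
  have e1 : Real.exp (γ s).1 ≤ M / 2 := by
    rw [← Real.le_log_iff_exp_le hα]; exact bx s hs
  have e2 : Real.exp (γ s).2 ≤ M / 2 - 1 := by
    rw [← Real.le_log_iff_exp_le hβ]; exact bY s hs
  refine ⟨Real.exp_pos _, Real.exp_pos _, ?_, ?_⟩
  · have := (hx s).exp
    simpa only [hFld, hcl, min_eq_left e1, min_eq_left e2] using this
  · have := (hy s).exp
    simpa only [hFld, hcl, min_eq_left e1, min_eq_left e2] using this

end Vale.Agent.P252
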