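import Vale.Agent.P252.Defs
import Vale.Agent.P252.Alg
import Mathlib.Analysis.Calculus.FDeriv.Mul
import Mathlib.Analysis.Calculus.FDeriv.Pi
import Mathlib.Analysis.Calculus.Deriv.Comp
import Mathlib.Analysis.Calculus.Deriv.Inv
import Mathlib.Analysis.Calculus.ContDiff.Operations

namespace Vale.Agent.P252

open Matrix
open scoped ContDiff

variable {m : ℕ}

def xp (y : Fin (m + 1) → ℝ) : Fin (m + 1) → ℝ := fun i => if i = 0 then 0 else y i

def e0 : Fin (m + 1) → ℝ := fun i => if i = 0 then 1 else 0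

def rho (y : Fin (m + 1) → ℝ) : ℝ := xp y ⬝ᵥ xp y

theorem rho_nonneg (y : Fin (m + 1) → ℝ) : 0 ≤ rho y := by
  unfold rho dotProduct
  exact Finset.sum_nonneg fun _ _ => mul_self_nonneg _

theorem xp_e0 (y : Fin (m + 1) → ℝ) : xp y ⬝ᵥ e0 = 0 := by
  apply Finset.sum_eq_zero
  intro i _
  by_cases h : i = 0 <;> simp [xp, e0, h]

theorem e0_e0 : (e0 : Fin (m + 1) → ℝ) ⬝ᵥ e0 = 1 := by
  simp [dotProduct, e0]

noncomputable def xpL (j : Fin (m + 1)) : (Fin (m + 1) → ℝ) →L[ℝ] ℝ :=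
  if j = 0 then 0 else ContinuousLinearMap.proj j

theorem xpL_apply (j : Fin (m + 1)) (y : Fin (m + 1) → ℝ) : xpL j y = xp y j := by
  by_cases h : j = 0 <;> simp [xpL, xp, h]

theorem hasFDerivAt_xp (j : Fin (m + 1)) (y : Fin (m + 1) → ℝ) :
    HasFDerivAt (fun y => xp y j) (xpL j) y := by
  have := (xpL j).hasFDerivAt (x := y)
  convert this using 1
  funext y; rw [xpL_apply]

theorem contDiff_rho : ContDiff ℝ ∞ (rho : (Fin (m + 1) → ℝ) → ℝ) := by
  have h : ∀ j, ContDiff ℝ ∞ (fun y : Fin (m + 1) → ℝ => xp y j) := fun j => by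
    have := (xpL j).contDiff (n := ∞)
    convert this using 1
    funext y; rw [xpL_apply]
  unfold rho dotProduct
  exact ContDiff.sum fun j _ => (h j).mul (h j)

noncomputable def dR (y : Fin (m + 1) → ℝ) : (Fin (m + 1) → ℝ) →L[ℝ] ℝ :=
  ∑ j, (2 * xp y j) • xpL j

noncomputable def dT : (Fin (m + 1) → ℝ) →L[ℝ] ℝ := ContinuousLinearMap.proj 0

theorem dR_single (y : Fin (m + 1) → ℝ) (i : Fin (m + 1)) :
    dR y (Pi.single i 1) = 2 * xp y i := by
  simp only [dR, _root_.sum_apply, _root_.smul_apply, xpL_apply,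
    smul_eq_mul]
  rw [Finset.sum_eq_single i]
  · by_cases h : i = 0 <;> simp [xp, h]
  · intro j _ hj
    by_cases h : j = 0 <;> simp [xp, h, hj]
  · simp

theorem dT_single (i : Fin (m + 1)) : dT (Pi.single i (1 : ℝ) : Fin (m + 1) → ℝ) = e0 i := by
  by_cases h : i = 0
  · simp [dT, e0, h]
  · simp [dT, e0, h, Ne.symm h]

/-- `f` has derivative `p dρ + q dt` at `y` -/
def HasGrad (f : (Fin (m + 1) → ℝ) → ℝ) (y : Fin (m + 1) → ℝ) (p q : ℝ) : Prop :=
  HasFDerivAt f (p • dR y + q • dT) y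

variable {f g : (Fin (m + 1) → ℝ) → ℝ} {y : Fin (m + 1) → ℝ} {p q p' q' : ℝ}

theorem HasGrad.congr (h : HasGrad f y p q) (hp : p = p') (hq : q = q') : HasGrad f y p' q' := by
  rwa [← hp, ← hq]

theorem hasGrad_rho : HasGrad rho y 1 0 := by
  unfold HasGrad rho dotProduct
  have := HasFDerivAt.fun_sum (u := Finset.univ)
    fun j _ => (hasFDerivAt_xp j y).mul (hasFDerivAt_xp j y)
  refine HasFDerivAt.congr_fderiv this ?_
  simp only [dR, one_smul, zero_smul, add_zero]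
  refine Finset.sum_congr rfl fun j _ => ?_
  rw [← add_smul, two_mul]

theorem hasGrad_t : HasGrad (fun y => y 0) y 0 1 := by
  unfold HasGrad
  refine HasFDerivAt.congr_fderiv ((dT (m := m)).hasFDerivAt (x := y)) ?_
  simp

theorem hasGrad_const (c : ℝ) : HasGrad (fun _ => c) y 0 0 := by
  unfold HasGrad
  simpa using hasFDerivAt_const c y

theorem HasGrad.add (h : HasGrad f y p q) (h' : HasGrad g y p' q') :
    HasGrad (fun y => f y + g y) y (p + p') (q + q') := by
  unfold HasGrad at *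
  refine HasFDerivAt.congr_fderiv (HasFDerivAt.fun_add h h') ?_
  module

theorem HasGrad.mul (h : HasGrad f y p q) (h' : HasGrad g y p' q') :
    HasGrad (fun y => f y * g y) y (p * g y + f y * p') (q * g y + f y * q') := by
  unfold HasGrad at *
  refine HasFDerivAt.congr_fderiv (HasFDerivAt.fun_mul h h') ?_
  module

theorem HasGrad.comp (h : HasGrad f y p q) {φ : ℝ → ℝ} {φ' : ℝ} (hφ : HasDerivAt φ φ' (f y)) :
    HasGrad (fun y => φ (f y)) y (φ' * p) (φ' * q) := by
  unfold HasGrad at *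
  refine HasFDerivAt.congr_fderiv (hφ.comp_hasFDerivAt y h) ?_
  module

theorem HasGrad.inv (h : HasGrad f y p q) (h0 : f y ≠ 0) :
    HasGrad (fun y => (f y)⁻¹) y (-(f y ^ 2)⁻¹ * p) (-(f y ^ 2)⁻¹ * q) :=
  h.comp (hasDerivAt_inv h0)

theorem HasGrad.pd (h : HasGrad f y p q) (i : Fin (m + 1)) :
    pd i f y = p * (2 * xp y i) + q * e0 i := by
  unfold P252.pd
  rw [HasFDerivAt.fderiv h]
  simp [dR_single, dT_single]

theorem hess_eq {P Q : (Fin (m + 1) → ℝ) → ℝ} (hf : ∀ y, HasGrad f y (P y) (Q y))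
    {p1 p2 q1 q2 : ℝ} (hP : HasGrad P y p1 p2) (hQ : HasGrad Q y q1 q2) :
    hess f y = Mf (xp y) e0 (2 * P y) (4 * p1) (2 * p2) (2 * q1) (q2 - 2 * P y) := by
  ext i j
  have e : P252.pd j f = fun y => P y * (2 * xp y j) + Q y * e0 j := by
    funext y; exact (hf y).pd j
  simp only [hess, of_apply]
  rw [e]
  have h1 := HasFDerivAt.fun_add
    (HasFDerivAt.fun_mul hP ((hasFDerivAt_xp j y).const_mul 2)) (HasFDerivAt.mul_const hQ (e0 j))
  unfold P252.pd
  rw [h1.fderiv]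
  simp only [_root_.add_apply, _root_.smul_apply, dR_single, dT_single,
    xpL_apply, smul_eq_mul, Mf, Matrix.add_apply, Matrix.smul_apply, vecMulVec_apply]
  have : xp (Pi.single i (1 : ℝ) : Fin (m + 1) → ℝ) j =
      (1 : Matrix (Fin (m + 1)) (Fin (m + 1)) ℝ) i j - e0 i * e0 j := by
    rw [Matrix.one_apply]
    by_cases hj : j = 0 <;> by_cases hi : i = 0
    · simp [xp, e0, hi, hj]
    · simp [xp, e0, hi, hj]
    · simp [xp, e0, hi, hj, Ne.symm hj]
    · by_cases hij : i = j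
      · simp [xp, e0, hj, hij]
      · simp [xp, e0, hi, hj, hij, Ne.symm hij]
  rw [this]
  ring

end Vale.Agent.P252
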