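import Vale.Agent.P252.Fixed
import Mathlib.Topology.ContinuousMap.Compact
import Mathlib.Topology.ContinuousMap.Algebra
import Mathlib.Topology.UnitInterval
import Mathlib.MeasureTheory.Integral.IntervalIntegral.FundThmCalculus
import Mathlib.MeasureTheory.Integral.DominatedConvergence
import Mathlib.Analysis.SpecialFunctions.Sqrt

namespace Vale.Agent.P252

open scoped Topology ContDiff unitInterval
open Filter Set MeasureTheory

abbrev CI := C(I, ℝ)

noncomputable def extI (f : CI) (s : ℝ) : ℝ := f (projIcc 0 1 zero_le_one s)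

theorem continuous_extI (f : CI) : Continuous (extI f) :=
  f.continuous.comp continuous_projIcc

theorem extI_of_mem (f : CI) {s : ℝ} (hs : s ∈ Icc (0 : ℝ) 1) : extI f s = f ⟨s, hs⟩ := by
  simp [extI, projIcc_of_mem _ hs]

noncomputable def Tfun (j : ℕ) (f : CI) : CI :=
  ⟨fun τ => ∫ η in (0 : ℝ)..1, η ^ j * extI f (η ^ 2 * τ), by
    apply intervalIntegral.continuous_parametric_intervalIntegral_of_continuous'
    have := continuous_extI f
    unfold Function.uncurry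
    fun_prop⟩

theorem Tfun_apply (j : ℕ) (f : CI) (τ : I) :
    Tfun j f τ = ∫ η in (0 : ℝ)..1, η ^ j * extI f (η ^ 2 * τ) := rfl

theorem intInt (j : ℕ) (f : CI) (c : ℝ) :
    IntervalIntegrable (fun η : ℝ => η ^ j * extI f (η ^ 2 * c)) volume 0 1 := by
  apply Continuous.intervalIntegrable
  have := continuous_extI f
  fun_prop

noncomputable def Tlin (j : ℕ) : CI →ₗ[ℝ] CI where
  toFun := Tfun j
  map_add' f g := by
    ext τ
    simp only [ContinuousMap.add_apply, Tfun_apply]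
    rw [← intervalIntegral.integral_add (intInt j f _) (intInt j g _)]
    congr 1; funext η; simp [extI]; ring
  map_smul' c f := by
    ext τ
    simp only [ContinuousMap.smul_apply, Tfun_apply, RingHom.id_apply, smul_eq_mul]
    rw [← intervalIntegral.integral_const_mul]
    congr 1; funext η; simp [extI]; ring

noncomputable def T (j : ℕ) : CI →L[ℝ] CI :=
  (Tlin j).mkContinuous 1 (by
    intro f
    rw [one_mul]
    refine (ContinuousMap.norm_le _ (norm_nonneg _)).2 fun τ => ?_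
    change ‖Tfun j f τ‖ ≤ _
    rw [Tfun_apply]
    have := intervalIntegral.norm_integral_le_of_norm_le_const (a := 0) (b := 1) (C := ‖f‖)
      (f := fun η : ℝ => η ^ j * extI f (η ^ 2 * τ)) (by
        intro x hx
        rw [uIoc_of_le zero_le_one] at hx
        rw [norm_mul]
        have h1 : ‖x ^ j‖ ≤ 1 := by
          rw [norm_pow, Real.norm_eq_abs, abs_of_pos hx.1]
          exact pow_le_one₀ hx.1.le hx.2
        have h2 : ‖extI f (x ^ 2 * τ)‖ ≤ ‖f‖ := f.norm_coe_le_norm _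
        calc _ ≤ 1 * ‖f‖ := mul_le_mul h1 h2 (norm_nonneg _) zero_le_one
          _ = _ := one_mul _)
    simpa using this)

theorem T_apply (j : ℕ) (f : CI) (τ : I) :
    T j f τ = ∫ η in (0 : ℝ)..1, η ^ j * extI f (η ^ 2 * τ) := rfl

/-- rescaling of the argument -/
noncomputable def Sc (l : I) (f : CI) : CI := ⟨fun τ => f (l * τ), by
  apply f.continuous.comp
  apply Continuous.subtype_mk
  fun_prop⟩

@[simp] theorem Sc_apply (l : I) (f : CI) (τ : I) : Sc l f τ = f (l * τ) := rfl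

theorem norm_Sc_le (l : I) (f : CI) : ‖Sc l f‖ ≤ ‖f‖ :=
  (ContinuousMap.norm_le _ (norm_nonneg _)).2 fun _ => f.norm_coe_le_norm _

theorem Sc_T (l : I) (j : ℕ) (f : CI) : Sc l (T j f) = T j (Sc l f) := by
  ext τ
  rw [Sc_apply, T_apply, T_apply]
  apply intervalIntegral.integral_congr
  intro η hη
  rw [uIcc_of_le zero_le_one] at hη
  have h2 : η ^ 2 ∈ Icc (0 : ℝ) 1 := ⟨by positivity, pow_le_one₀ hη.1 hη.2⟩
  have h3 : η ^ 2 * (τ : ℝ) ∈ Icc (0 : ℝ) 1 := unitInterval.mul_mem h2 τ.2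
  have h4 : η ^ 2 * ((l * τ : I) : ℝ) ∈ Icc (0 : ℝ) 1 := unitInterval.mul_mem h2 (l * τ).2
  simp only
  rw [extI_of_mem _ h3, extI_of_mem _ h4, Sc_apply]
  congr 2
  ext
  simp only [Set.Icc.coe_mul]
  ring

noncomputable def idC : CI := ⟨fun τ => (τ : ℝ), continuous_subtype_val⟩

@[simp] theorem idC_apply (τ : I) : idC τ = τ := rfl

noncomputable def PA (p : ℝ × (CI × CI × CI)) : CI :=
  1 + (p.1 • idC) * T 1 (p.2.1 * (p.2.2.1 - p.2.1))

noncomputable def PQ (M : ℝ) (p : ℝ × (CI × CI × CI)) : CI :=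
  (2 / M) • (1 : CI) - (2 / M) • ((p.1 • idC) * p.2.1 * p.2.2.2)

noncomputable def PR (M : ℝ) (p : ℝ × (CI × CI × CI)) : CI :=
  -(M • ((p.1 • idC) * p.2.2.1 * p.2.2.1)) +
    (1 / (M + 2)) • ((1 + (p.1 • idC) * p.2.2.1) * PA p *
      ((M + 3) • (((M + 1) • (1 : CI) + (M + 2) • ((p.1 • idC) * p.2.2.1) +
        (p.1 • idC) * p.2.1) * PQ M p) - 1))

noncomputable def Phi (m : ℕ) (p : ℝ × (CI × CI × CI)) : CI × CI × CI :=
  (PA p, T (m + 1) (PR m p), PQ m p)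

theorem contDiff_PA : ContDiff ℝ ω PA := by
  unfold PA
  have := (T 1).contDiff (n := ω)
  fun_prop

theorem contDiff_PQ (M : ℝ) : ContDiff ℝ ω (PQ M) := by
  unfold PQ
  fun_prop

theorem contDiff_PR (M : ℝ) : ContDiff ℝ ω (PR M) := by
  unfold PR
  have := contDiff_PA
  have := contDiff_PQ M
  fun_prop

theorem contDiff_Phi (m : ℕ) : ContDiff ℝ ω (Phi m) := by
  unfold Phi
  have := contDiff_PA
  have := contDiff_PQ m
  have := contDiff_PR m
  have := (T (m + 1)).contDiff (n := ω)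
  fun_prop

theorem Phi_zero (m : ℕ) (X : CI × CI × CI) : Phi m (0, X) = Phi m (0, 0) := by
  simp [Phi, PA, PQ, PR]

noncomputable def Sc3 (l : I) (X : CI × CI × CI) : CI × CI × CI :=
  (Sc l X.1, Sc l X.2.1, Sc l X.2.2)

theorem Sc_PA (l : I) (ε : ℝ) (X : CI × CI × CI) :
    Sc l (PA (ε, X)) = PA (l * ε, Sc3 l X) := by
  have h : Sc l (T 1 (X.1 * (X.2.1 - X.1))) = T 1 (Sc l X.1 * (Sc l X.2.1 - Sc l X.1)) := by
    rw [Sc_T]; rfl
  ext τ
  have h' := congrArg (fun g : CI => g τ) h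
  simp only [Sc_apply] at h'
  simp only [PA, Sc3, Sc_apply, ContinuousMap.add_apply, ContinuousMap.mul_apply,
    ContinuousMap.smul_apply, idC_apply, ContinuousMap.one_apply, smul_eq_mul, h',
    Set.Icc.coe_mul]
  ring

theorem Sc_PQ (M : ℝ) (l : I) (ε : ℝ) (X : CI × CI × CI) :
    Sc l (PQ M (ε, X)) = PQ M (l * ε, Sc3 l X) := by
  ext τ
  simp only [PQ, Sc3, Sc_apply, ContinuousMap.sub_apply, ContinuousMap.mul_apply,
    ContinuousMap.smul_apply, idC_apply, ContinuousMap.one_apply, smul_eq_mul,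
    Set.Icc.coe_mul]
  ring

theorem Sc_PR (M : ℝ) (l : I) (ε : ℝ) (X : CI × CI × CI) :
    Sc l (PR M (ε, X)) = PR M (l * ε, Sc3 l X) := by
  ext τ
  have h1 := congrArg (fun g : CI => g τ) (Sc_PA l ε X)
  have h2 := congrArg (fun g : CI => g τ) (Sc_PQ M l ε X)
  simp only [Sc_apply] at h1 h2
  simp only [PR, Sc_apply, ContinuousMap.sub_apply, ContinuousMap.add_apply,
    ContinuousMap.neg_apply, ContinuousMap.mul_apply,
    ContinuousMap.smul_apply, idC_apply, ContinuousMap.one_apply, smul_eq_mul,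
    Set.Icc.coe_mul, h1, h2]
  simp only [Sc3, Sc_apply]
  ring

theorem Sc3_Phi (m : ℕ) (l : I) (ε : ℝ) (X : CI × CI × CI) :
    Sc3 l (Phi m (ε, X)) = Phi m (l * ε, Sc3 l X) := by
  simp only [Phi, Sc3, Sc_T]
  rw [Sc_PA, Sc_PQ, Sc_PR]
  rfl

theorem norm_Sc3_sub_le (m : ℕ) (l : I) (X : CI × CI × CI) :
    ‖Sc3 l X - Phi m (0, 0)‖ ≤ ‖X - Phi m (0, 0)‖ := by
  have h : Sc3 l (Phi m (0, 0)) = Phi m (0, 0) := by
    rw [Sc3_Phi, mul_zero, Phi_zero]
  have h2 : Sc3 l X - Phi m (0, 0) = Sc3 l (X - Phi m (0, 0)) := by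
    conv_lhs => rw [← h]
    rfl
  rw [h2]
  set Y := X - Phi m (0, 0)
  simp only [Sc3, Prod.norm_def]
  exact max_le_max (norm_Sc_le _ _) (max_le_max (norm_Sc_le _ _) (norm_Sc_le _ _))

/-- the inhomogeneous term of the singular equation for `b` -/
noncomputable def Rt (M ρ a b q : ℝ) : ℝ :=
  -(M * (ρ * b * b)) + (1 / (M + 2)) * ((1 + ρ * b) * a *
      ((M + 3) * (((M + 1) + (M + 2) * (ρ * b) + ρ * a) * q) - 1))

theorem exists_integral_solution (m : ℕ) :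
    ∃ a b q : ℝ → ℝ, ∃ η > (0 : ℝ), a 0 = 1 ∧ ∀ ε, |ε| < η →
      AnalyticAt ℝ a ε ∧ AnalyticAt ℝ b ε ∧ AnalyticAt ℝ q ε ∧
      a ε = 1 + ε * ∫ s in (0 : ℝ)..1, s ^ 1 * (a (s ^ 2 * ε) * (b (s ^ 2 * ε) - a (s ^ 2 * ε))) ∧
      q ε = 2 / (m : ℝ) - 2 / (m : ℝ) * (ε * a ε * q ε) ∧
      b ε = ∫ s in (0 : ℝ)..1, s ^ (m + 1) *
        Rt m (s ^ 2 * ε) (a (s ^ 2 * ε)) (b (s ^ 2 * ε)) (q (s ^ 2 * ε)) := by
  obtain ⟨ψ, η, hη, r, hr, h1, h0, h2⟩ :=
    exists_param_fixed (Phi m) (contDiff_Phi m) (Phi m (0, 0)) (Phi_zero m)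
  have hscale : ∀ ε, |ε| < η → ∀ l : I, ψ (l * ε) = Sc3 l (ψ ε) := by
    intro ε hε l
    apply h2
    · rw [abs_mul, abs_of_nonneg l.2.1]
      calc (l : ℝ) * |ε| ≤ 1 * |ε| := mul_le_mul_of_nonneg_right l.2.2 (abs_nonneg _)
        _ < η := by rwa [one_mul]
    · exact lt_of_le_of_lt (norm_Sc3_sub_le m l _) (h1 ε hε).2.2
    · rw [← Sc3_Phi, (h1 ε hε).2.1]
  have ha : ∀ ε, |ε| < η → ∀ l : I, (ψ (l * ε)).1 1 = (ψ ε).1 l := by
    intro ε hε l; rw [hscale ε hε l]; simp [Sc3]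
  have hb : ∀ ε, |ε| < η → ∀ l : I, (ψ (l * ε)).2.1 1 = (ψ ε).2.1 l := by
    intro ε hε l; rw [hscale ε hε l]; simp [Sc3]
  have hq : ∀ ε, |ε| < η → ∀ l : I, (ψ (l * ε)).2.2 1 = (ψ ε).2.2 l := by
    intro ε hε l; rw [hscale ε hε l]; simp [Sc3]
  refine ⟨fun ε => (ψ ε).1 1, fun ε => (ψ ε).2.1 1, fun ε => (ψ ε).2.2 1, η, hη, ?_, ?_⟩
  · simp [h0, Phi, PA]
  intro ε hε
  obtain ⟨hA, hF, -⟩ := h1 ε hε
  have hev : AnalyticAt ℝ (fun f : CI => f 1) = fun _ => True := by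
    funext f
    simp only [eq_iff_iff, iff_true]
    exact (ContinuousMap.evalCLM ℝ (1 : I) : CI →L[ℝ] ℝ).analyticAt f
  have hev' : ∀ f : CI, AnalyticAt ℝ (fun f : CI => f 1) f := fun f => by rw [hev]; trivial
  have hF1 : PA (ε, ψ ε) = (ψ ε).1 := congrArg Prod.fst hF
  have hF2 : T (m + 1) (PR m (ε, ψ ε)) = (ψ ε).2.1 := congrArg (fun p => p.2.1) hF
  have hF3 : PQ m (ε, ψ ε) = (ψ ε).2.2 := congrArg (fun p => p.2.2) hF
  refine ⟨(hev' _).comp (analyticAt_fst.comp hA),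
    (hev' _).comp (analyticAt_fst.comp (analyticAt_snd.comp hA)),
    (hev' _).comp (analyticAt_snd.comp (analyticAt_snd.comp hA)), ?_, ?_, ?_⟩
  · beta_reduce
    conv_lhs => rw [← hF1]
    simp only [PA, ContinuousMap.add_apply, ContinuousMap.mul_apply,
      ContinuousMap.smul_apply, idC_apply, ContinuousMap.one_apply, smul_eq_mul, T_apply,
      Set.Icc.coe_one, mul_one]
    congr 2
    apply intervalIntegral.integral_congr
    intro s hs
    rw [uIcc_of_le zero_le_one] at hs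
    have h2 : s ^ 2 ∈ Icc (0 : ℝ) 1 := ⟨by positivity, pow_le_one₀ hs.1 hs.2⟩
    simp only
    rw [extI_of_mem _ h2]
    have e1 := ha ε hε ⟨_, h2⟩
    have e2 := hb ε hε ⟨_, h2⟩
    simp only at e1 e2
    rw [e1, e2]
    simp
  · beta_reduce
    conv_lhs => rw [← hF3]
    simp [PQ, mul_assoc]
  · beta_reduce
    conv_lhs => rw [← hF2]
    simp only [T_apply, Set.Icc.coe_one, mul_one]
    apply intervalIntegral.integral_congr
    intro s hs
    rw [uIcc_of_le zero_le_one] at hs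
    have h2 : s ^ 2 ∈ Icc (0 : ℝ) 1 := ⟨by positivity, pow_le_one₀ hs.1 hs.2⟩
    simp only
    rw [extI_of_mem _ h2]
    have e1 := ha ε hε ⟨_, h2⟩
    have e2 := hb ε hε ⟨_, h2⟩
    have e3 := hq ε hε ⟨_, h2⟩
    simp only at e1 e2 e3
    rw [e1, e2, e3]
    simp only [PR, hF1, hF3, Rt, ContinuousMap.sub_apply, ContinuousMap.add_apply,
      ContinuousMap.neg_apply, ContinuousMap.mul_apply,
      ContinuousMap.smul_apply, idC_apply, ContinuousMap.one_apply, smul_eq_mul]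
    ring

end Vale.Agent.P252
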