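import Vale.Agent.P252.PDE

namespace Vale.Agent.P252

open Matrix Set
open scoped ContDiff Topology

theorem exists_Profile (m : ℕ) (hm : 9 ≤ m) : ∃ F a b w : ℝ → ℝ, Profile m F a b w ∧ F 0 = 1 ∧
    ∀ ρ, 0 ≤ ρ → ContDiffAt ℝ ∞ F ρ := by
  obtain ⟨a, b, w, δ, hδ, ha, -, H⟩ := exists_profile m hm
  set L : ℝ → ℝ := fun ρ => ∫ s in (0 : ℝ)..ρ, a s with hL
  have hLd : ∀ ρ ∈ Ioi (-δ), HasDerivAt L (a ρ) ρ := by
    intro ρ hρ
    apply intervalIntegral.integral_hasDerivAt_right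
    · apply ContinuousOn.intervalIntegrable
      apply ha.continuousOn.mono
      intro s hs
      rcases mem_uIcc.1 hs with h | h
      · exact lt_of_lt_of_le (by linarith : -δ < 0) h.1
      · exact lt_of_lt_of_le (mem_Ioi.1 hρ) h.1
    · exact ha.continuousOn.stronglyMeasurableAtFilter isOpen_Ioi ρ hρ
    · exact ha.continuousOn.continuousAt (Ioi_mem_nhds hρ)
  have hLs : ContDiffOn ℝ ∞ L (Ioi (-δ)) := by
    rw [contDiffOn_infty_iff_deriv_of_isOpen isOpen_Ioi]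
    exact ⟨fun ρ hρ => (hLd ρ hρ).differentiableAt.differentiableWithinAt,
      ha.congr fun ρ hρ => (hLd ρ hρ).deriv⟩
  have hm' : ∀ ρ : ℝ, 0 ≤ ρ → ρ ∈ Ioi (-δ) := fun ρ h => lt_of_lt_of_le (by linarith : -δ < 0) h
  refine ⟨fun ρ => Real.exp (L ρ), a, b, w, ⟨fun ρ _ => Real.exp_pos _, fun ρ h => (H ρ h).1,
    fun ρ h => (H ρ h).2.1, fun ρ h => (H ρ h).2.2.1, fun ρ h => (hLd ρ (hm' ρ h)).exp,
    fun ρ h => (H ρ h).2.2.2.1, fun ρ h => (H ρ h).2.2.2.2⟩, by simp [hL], fun ρ h => ?_⟩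
  exact (hLs.contDiffAt (Ioi_mem_nhds (hm' ρ h))).exp

theorem exists_entire (n : ℕ) (hn : 10 ≤ n) :
    ∃ u : (Fin n → ℝ) → ℝ, ContDiff ℝ ∞ u ∧ (∀ x, (hess u x).PosDef) ∧ SolvesAM u ∧
      ¬ ∃ (A : Matrix (Fin n) (Fin n) ℝ) (b : Fin n → ℝ) (c : ℝ),
        ∀ x, u x = 1 / 2 * (x ⬝ᵥ (A *ᵥ x)) + b ⬝ᵥ x + c := by
  obtain ⟨m, rfl⟩ : ∃ m, n = m + 1 := ⟨n - 1, by omega⟩
  obtain ⟨F, a, b, w, h, hF0, hFs⟩ := exists_Profile m (by omega)
  refine ⟨uf F, ?_, h.posDef, h.solves (by omega), ?_⟩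
  · rw [contDiff_iff_contDiffAt]
    intro y
    have h1 : ContDiffAt ℝ ∞ (fun y : Fin (m + 1) → ℝ => F (rho y)) y :=
      ContDiffAt.comp y (hFs _ (rho_nonneg y)) contDiff_rho.contDiffAt
    have h2 : ContDiffAt ℝ ∞ (Sf (m := m) F) y := by
      unfold Sf
      exact h1.add (by fun_prop)
    exact h2.sqrt (h.Spos y).ne'
  · rintro ⟨A, b, c, H⟩
    have key : ∀ t : ℝ, √(1 + t * t) = 1 / 2 * (t * t * A 0 0) + b 0 * t + c := by
      intro t
      have := H (Pi.single 0 t)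
      have hr : rho (Pi.single 0 t : Fin (m + 1) → ℝ) = 0 := by
        have : xp (Pi.single 0 t : Fin (m + 1) → ℝ) = 0 := by
          funext i
          by_cases hi : i = 0 <;> simp [xp, hi]
        simp [rho, this]
      simp only [uf, Sf, hr, hF0, Pi.single_eq_same, single_dotProduct, mulVec_single,
        dotProduct_single] at this
      rw [this]
      simp
      ring
    have k0 := key 0
    have k1 := key (3 / 4)
    have k2 := key (-(3 / 4))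
    have k3 := key (4 / 3)
    rw [show (1 : ℝ) + 0 * 0 = 1 ^ 2 by norm_num, Real.sqrt_sq (by norm_num)] at k0
    rw [show (1 : ℝ) + 3 / 4 * (3 / 4) = (5 / 4) ^ 2 by norm_num, Real.sqrt_sq (by norm_num)] at k1
    rw [show (1 : ℝ) + -(3 / 4) * -(3 / 4) = (5 / 4) ^ 2 by norm_num,
      Real.sqrt_sq (by norm_num)] at k2
    rw [show (1 : ℝ) + 4 / 3 * (4 / 3) = (5 / 3) ^ 2 by norm_num, Real.sqrt_sq (by norm_num)] at k3
    linarith

end Vale.Agent.P252
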