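import Vale.Agent.P252.GlobalODE

namespace Vale.Agent.P252

open scoped Topology ContDiff NNReal
open Filter Set

theorem hasDerivAt_glue {f g : ℝ → ℝ} {c d x : ℝ} (hf : x ≤ c → HasDerivAt f d x)
    (hg : c ≤ x → HasDerivAt g d x) (hc : f c = g c) :
    HasDerivAt (fun x => if x ≤ c then f x else g x) d x := by
  rcases lt_trichotomy x c with h | rfl | h
  · refine (hf h.le).congr_of_eventuallyEq ?_
    filter_upwards [Iio_mem_nhds h] with y hy
    simp [(mem_Iio.1 hy).le]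
  · have h1 : HasDerivWithinAt (fun y => if y ≤ x then f y else g y) d (Iic x) x :=
      (hf le_rfl).hasDerivWithinAt.congr (fun y hy => by simp [mem_Iic.1 hy]) (by simp)
    have h2 : HasDerivWithinAt (fun y => if y ≤ x then f y else g y) d (Ici x) x :=
      (hg le_rfl).hasDerivWithinAt.congr (fun y hy => by
        rcases (mem_Ici.1 hy).eq_or_lt with rfl | h
        · simp [hc]
        · simp [not_le.2 h]) (by simp [hc])
    have := h1.union h2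
    rwa [Iic_union_Ici, hasDerivWithinAt_univ] at this
  · refine (hg h.le).congr_of_eventuallyEq ?_
    filter_upwards [Ioi_mem_nhds h] with y hy
    simp [not_le.2 (mem_Ioi.1 hy)]

theorem smooth_of_ode {M : ℝ} (hM : 0 < M) {a w : ℝ → ℝ} (hpos : ∀ ρ, 0 < ρ → 0 < a ρ)
    (ha : ∀ ρ, 0 < ρ → HasDerivAt a (a ρ * ((w ρ - 1) / ρ - a ρ) / 2) ρ)
    (hw : ∀ ρ, 0 < ρ →
      HasDerivAt w (w ρ * (-(M * ((w ρ - 1) / ρ)) + a ρ * Jf M (ρ * a ρ) (w ρ)) / 2) ρ) :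
    ContDiffOn ℝ ∞ a (Ioi 0) ∧ ContDiffOn ℝ ∞ w (Ioi 0) := by
  have H : ∀ k : ℕ, ContDiffOn ℝ k a (Ioi 0) ∧ ContDiffOn ℝ k w (Ioi 0) := by
    intro k
    induction k with
    | zero =>
      simp only [CharP.cast_eq_zero, contDiffOn_zero]
      exact ⟨fun ρ h => (ha ρ h).continuousAt.continuousWithinAt,
        fun ρ h => (hw ρ h).continuousAt.continuousWithinAt⟩
    | succ k ih =>
      obtain ⟨i1, i2⟩ := ih
      have hb : ContDiffOn ℝ k (fun ρ => (w ρ - 1) / ρ) (Ioi 0) :=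
        ContDiffOn.div (i2.sub contDiffOn_const) contDiffOn_id (fun ρ h => (mem_Ioi.1 h).ne')
      have hv : ContDiffOn ℝ k (fun ρ => ρ * a ρ) (Ioi 0) := contDiffOn_id.mul i1
      have hJ : ContDiffOn ℝ k (fun ρ => Jf M (ρ * a ρ) (w ρ)) (Ioi 0) := by
        unfold Jf
        refine ContDiffOn.div_const (ContDiffOn.sub ?_ contDiffOn_const) _
        refine ContDiffOn.div (by fun_prop) (by fun_prop) ?_
        intro ρ h
        have := hpos ρ h
        have := mem_Ioi.1 h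
        positivity
      push_cast
      constructor
      · rw [contDiffOn_succ_iff_deriv_of_isOpen isOpen_Ioi]
        refine ⟨fun ρ h => (ha ρ h).differentiableAt.differentiableWithinAt, by simp, ?_⟩
        refine ContDiffOn.congr (f := fun ρ => a ρ * ((w ρ - 1) / ρ - a ρ) / 2) ?_
          (fun ρ h => (ha ρ h).deriv)
        exact (i1.mul (hb.sub i1)).div_const _
      · rw [contDiffOn_succ_iff_deriv_of_isOpen isOpen_Ioi]
        refine ⟨fun ρ h => (hw ρ h).differentiableAt.differentiableWithinAt, by simp, ?_⟩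
        refine ContDiffOn.congr
          (f := fun ρ => w ρ * (-(M * ((w ρ - 1) / ρ)) + a ρ * Jf M (ρ * a ρ) (w ρ)) / 2) ?_
          (fun ρ h => (hw ρ h).deriv)
        exact (i2.mul ((contDiffOn_const.mul hb).neg.add (i1.mul hJ))).div_const _
  exact ⟨contDiffOn_infty.2 fun k => (H k).1, contDiffOn_infty.2 fun k => (H k).2⟩

theorem exists_profile (m : ℕ) (hm : 9 ≤ m) :
    ∃ a b w : ℝ → ℝ, ∃ δ > (0 : ℝ), ContDiffOn ℝ ∞ a (Ioi (-δ)) ∧ ContDiffOn ℝ ∞ w (Ioi (-δ)) ∧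
      ∀ ρ, 0 ≤ ρ → 0 < a ρ ∧ 0 < w ρ ∧ w ρ = 1 + ρ * b ρ ∧
        HasDerivAt a (a ρ * (b ρ - a ρ) / 2) ρ ∧
        HasDerivAt w (w ρ * (-(m * b ρ) + a ρ * Jf m (ρ * a ρ) (w ρ)) / 2) ρ := by
  obtain ⟨a, b, η, hη, ha0, hA, hD⟩ := local_ode m (by omega)
  have hM : (9 : ℝ) ≤ m := by exact_mod_cast hm
  have h00 : |(0 : ℝ)| < η := by simpa using hη
  have hev : ∀ᶠ ρ in 𝓝 (0 : ℝ), 0 < a ρ ∧ ρ * a ρ < m / 2 ∧ 0 < 1 + ρ * b ρ ∧
      1 + ρ * b ρ < m / 2 - 1 ∧ |ρ| < η := by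
    have c1 := (hA 0 h00).1.continuousAt
    have c2 := (hA 0 h00).2.continuousAt
    have c3 : ContinuousAt (fun ρ => ρ * a ρ) 0 := by fun_prop
    have c4 : ContinuousAt (fun ρ => 1 + ρ * b ρ) 0 := by fun_prop
    have c5 : ContinuousAt (fun ρ : ℝ => |ρ|) 0 := by fun_prop
    refine (c1.eventually (lt_mem_nhds (by rw [ha0]; norm_num))).and
      ((c3.eventually (gt_mem_nhds (by simp only; linarith))).and
      ((c4.eventually (lt_mem_nhds (by simp))).and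
      ((c4.eventually (gt_mem_nhds (by simp only; linarith))).and
      (c5.eventually (gt_mem_nhds h00)))))
  obtain ⟨δ, hδ, hδ'⟩ := Metric.eventually_nhds_iff.1 hev
  have hδ2 : ∀ ρ, |ρ| < δ → 0 < a ρ ∧ ρ * a ρ < m / 2 ∧ 0 < 1 + ρ * b ρ ∧
      1 + ρ * b ρ < m / 2 - 1 ∧ |ρ| < η := fun ρ h => hδ' (by simpa [Real.dist_eq] using h)
  set c := δ / 2 with hc
  have hc0 : 0 < c := by positivity
  have hcδ : |c| < δ := by rw [abs_of_pos hc0]; linarith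
  obtain ⟨V, W, hV0, hW0, hVW⟩ := exists_forward hM (v0 := c * a c) (w0 := 1 + c * b c)
    (mul_pos hc0 (hδ2 c hcδ).1) (hδ2 c hcδ).2.1.le (hδ2 c hcδ).2.2.1 (hδ2 c hcδ).2.2.2.1.le
  set σ : ℝ → ℝ := fun ρ => (Real.log ρ - Real.log c) / 2 with hσ
  have hσc : σ c = 0 := by simp [hσ]
  have hσ0 : ∀ ρ, c ≤ ρ → 0 ≤ σ ρ := fun ρ h => by
    have := Real.log_le_log hc0 h
    simp only [hσ]; linarith
  have hσd : ∀ ρ, c ≤ ρ → HasDerivAt σ (ρ⁻¹ / 2) ρ := fun ρ h =>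
    ((Real.hasDerivAt_log (hc0.trans_le h).ne').sub_const _).div_const 2
  set A : ℝ → ℝ := fun ρ => if ρ ≤ c then a ρ else V (σ ρ) / ρ with hAdef
  set B : ℝ → ℝ := fun ρ => if ρ ≤ c then b ρ else (W (σ ρ) - 1) / ρ with hBdef
  set Ω : ℝ → ℝ := fun ρ => if ρ ≤ c then 1 + ρ * b ρ else W (σ ρ) with hΩdef
  have gA : a c = V (σ c) / c := by rw [hσc, hV0]; field_simp
  have gB : b c = (W (σ c) - 1) / c := by rw [hσc, hW0]; field_simp; ring
  have gΩ : 1 + c * b c = W (σ c) := by rw [hσc, hW0]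
  have lA : ∀ ρ, ρ ≤ c → A ρ = a ρ := fun ρ h => by simp [hAdef, h]
  have lB : ∀ ρ, ρ ≤ c → B ρ = b ρ := fun ρ h => by simp [hBdef, h]
  have lΩ : ∀ ρ, ρ ≤ c → Ω ρ = 1 + ρ * b ρ := fun ρ h => by simp [hΩdef, h]
  have rA : ∀ ρ, c ≤ ρ → A ρ = V (σ ρ) / ρ := fun ρ h => by
    rcases h.eq_or_lt with rfl | h
    · rw [lA _ le_rfl, gA]
    · simp [hAdef, not_le.2 h]
  have rB : ∀ ρ, c ≤ ρ → B ρ = (W (σ ρ) - 1) / ρ := fun ρ h => by
    rcases h.eq_or_lt with rfl | h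
    · rw [lB _ le_rfl, gB]
    · simp [hBdef, not_le.2 h]
  have rΩ : ∀ ρ, c ≤ ρ → Ω ρ = W (σ ρ) := fun ρ h => by
    rcases h.eq_or_lt with rfl | h
    · rw [lΩ _ le_rfl, gΩ]
    · simp [hΩdef, not_le.2 h]
  have main : ∀ ρ, 0 ≤ ρ → 0 < A ρ ∧ 0 < Ω ρ ∧ Ω ρ = 1 + ρ * B ρ ∧
        HasDerivAt A (A ρ * (B ρ - A ρ) / 2) ρ ∧
        HasDerivAt Ω (Ω ρ * (-(m * B ρ) + A ρ * Jf m (ρ * A ρ) (Ω ρ)) / 2) ρ := by
    intro ρ hρ
    have hsmall : ρ ≤ c → |ρ| < δ := fun h => by rw [abs_of_nonneg hρ]; linarith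
    have hsmall' : ρ ≤ c → ρ < η := fun h => lt_of_le_of_lt (le_abs_self ρ)
      (hδ2 ρ (hsmall h)).2.2.2.2
    refine ⟨?_, ?_, ?_, ?_, ?_⟩
    · rcases le_total ρ c with h | h
      · rw [lA ρ h]; exact (hδ2 ρ (hsmall h)).1
      · rw [rA ρ h]; exact div_pos (hVW _ (hσ0 ρ h)).1 (hc0.trans_le h)
    · rcases le_total ρ c with h | h
      · rw [lΩ ρ h]; exact (hδ2 ρ (hsmall h)).2.2.1
      · rw [rΩ ρ h]; exact (hVW _ (hσ0 ρ h)).2.1
    · rcases le_total ρ c with h | h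
      · rw [lΩ ρ h, lB ρ h]
      · have := (hc0.trans_le h).ne'
        rw [rΩ ρ h, rB ρ h]; field_simp; ring
    · refine hasDerivAt_glue (fun h => ?_) (fun h => ?_) gA
      · rw [lA ρ h, lB ρ h]; exact (hD ρ hρ (hsmall' h)).1
      · have hne := (hc0.trans_le h).ne'
        have k1 := HasDerivAt.comp (h := σ) ρ (hVW _ (hσ0 ρ h)).2.2.1 (hσd ρ h)
        have k2 := k1.div (hasDerivAt_id ρ) hne
        refine HasDerivAt.congr_deriv k2 ?_
        rw [rA ρ h, rB ρ h]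
        simp only [Function.comp, id]
        field_simp
        ring
    · refine hasDerivAt_glue (fun h => ?_) (fun h => ?_) gΩ
      · rw [lA ρ h, lB ρ h, lΩ ρ h]; exact (hD ρ hρ (hsmall' h)).2
      · have hne := (hc0.trans_le h).ne'
        have k1 := HasDerivAt.comp (h := σ) ρ (hVW _ (hσ0 ρ h)).2.2.2 (hσd ρ h)
        refine HasDerivAt.congr_deriv k1 ?_
        rw [rA ρ h, rB ρ h, rΩ ρ h, mul_div_cancel₀ _ hne, Gf]
        field_simp
        ring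
  have hB' : ∀ ρ, 0 < ρ → B ρ = (Ω ρ - 1) / ρ := fun ρ h => by
    rw [(main ρ h.le).2.2.1]; field_simp; ring
  have hsm := smooth_of_ode (M := m) (a := A) (w := Ω) (by linarith)
    (fun ρ h => (main ρ h.le).1)
    (fun ρ h => by rw [← hB' ρ h]; exact (main ρ h.le).2.2.2.1)
    (fun ρ h => by rw [← hB' ρ h]; exact (main ρ h.le).2.2.2.2)
  refine ⟨A, B, Ω, c, hc0, ?_, ?_, main⟩
  · intro ρ hρ
    apply ContDiffAt.contDiffWithinAt
    rcases lt_or_ge 0 ρ with h | h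
    · exact hsm.1.contDiffAt (Ioi_mem_nhds h)
    · have h1 : |ρ| < δ := by rw [abs_of_nonpos h]; linarith [mem_Ioi.1 hρ]
      have h2 : ContDiffAt ℝ ∞ a ρ := (hA ρ (hδ2 ρ h1).2.2.2.2).1.contDiffAt
      refine h2.congr_of_eventuallyEq ?_
      filter_upwards [Iio_mem_nhds (lt_of_le_of_lt h hc0)] with y hy using lA y (mem_Iio.1 hy).le
  · intro ρ hρ
    apply ContDiffAt.contDiffWithinAt
    rcases lt_or_ge 0 ρ with h | h
    · exact hsm.2.contDiffAt (Ioi_mem_nhds h)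
    · have h1 : |ρ| < δ := by rw [abs_of_nonpos h]; linarith [mem_Ioi.1 hρ]
      have h2 : ContDiffAt ℝ ∞ b ρ := (hA ρ (hδ2 ρ h1).2.2.2.2).2.contDiffAt
      have h3 : ContDiffAt ℝ ∞ (fun ρ => 1 + ρ * b ρ) ρ :=
        contDiffAt_const.add (contDiffAt_id.mul h2)
      refine h3.congr_of_eventuallyEq ?_
      filter_upwards [Iio_mem_nhds (lt_of_le_of_lt h hc0)] with y hy using lΩ y (mem_Iio.1 hy).le

end Vale.Agent.P252
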