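import Vale.Agent.P252.Grad
import Vale.Agent.P252.Profile

namespace Vale.Agent.P252

open Matrix
open scoped ContDiff

/-- The data of a radial profile. -/
structure Profile (m : ℕ) (F a b w : ℝ → ℝ) : Prop where
  Fpos : ∀ ρ, 0 ≤ ρ → 0 < F ρ
  apos : ∀ ρ, 0 ≤ ρ → 0 < a ρ
  wpos : ∀ ρ, 0 ≤ ρ → 0 < w ρ
  weq : ∀ ρ, 0 ≤ ρ → w ρ = 1 + ρ * b ρ
  dF : ∀ ρ, 0 ≤ ρ → HasDerivAt F (F ρ * a ρ) ρ
  da : ∀ ρ, 0 ≤ ρ → HasDerivAt a (a ρ * (b ρ - a ρ) / 2) ρ
  dw : ∀ ρ, 0 ≤ ρ → HasDerivAt w (w ρ * (-(m * b ρ) + a ρ * Jf m (ρ * a ρ) (w ρ)) / 2) ρ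

variable {m : ℕ} {F a b w : ℝ → ℝ}

noncomputable def Sf (F : ℝ → ℝ) (y : Fin (m + 1) → ℝ) : ℝ := F (rho y) + y 0 * y 0

noncomputable def uf (F : ℝ → ℝ) (y : Fin (m + 1) → ℝ) : ℝ := √(Sf F y)

namespace Profile

variable (h : Profile m F a b w) (y : Fin (m + 1) → ℝ)
include h

theorem Spos : 0 < Sf F y := by
  have := h.Fpos _ (rho_nonneg y)
  have := mul_self_nonneg (y 0)
  unfold Sf; linarith

theorem upos : 0 < uf F y := Real.sqrt_pos.2 (h.Spos y)

theorem usq : uf F y ^ 2 = F (rho y) + y 0 * y 0 := Real.sq_sqrt (h.Spos y).le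

theorem gF : HasGrad (fun y => F (rho y)) y (F (rho y) * a (rho y)) 0 :=
  (hasGrad_rho.comp (h.dF _ (rho_nonneg y))).congr (by ring) (by ring)

theorem ga : HasGrad (fun y => a (rho y)) y (a (rho y) * (b (rho y) - a (rho y)) / 2) 0 :=
  (hasGrad_rho.comp (h.da _ (rho_nonneg y))).congr (by ring) (by ring)

theorem gw : HasGrad (fun y => w (rho y)) y (w (rho y) * (-(m * b (rho y)) +
    a (rho y) * Jf m (rho y * a (rho y)) (w (rho y))) / 2) 0 :=
  (hasGrad_rho.comp (h.dw _ (rho_nonneg y))).congr (by ring) (by ring)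

theorem gS : HasGrad (Sf F) y (F (rho y) * a (rho y)) (2 * y 0) :=
  ((h.gF y).add (hasGrad_t.mul hasGrad_t)).congr (by ring) (by ring)

theorem gu : HasGrad (uf F) y (F (rho y) * a (rho y) * (uf F y)⁻¹ * (1 / 2))
    (y 0 * (uf F y)⁻¹) := by
  have := (h.gS y).comp (Real.hasDerivAt_sqrt (h.Spos y).ne')
  have hu := (h.upos y).ne'
  refine HasGrad.congr this ?_ ?_
  · change 1 / (2 * uf F y) * _ = _
    field_simp
  · change 1 / (2 * uf F y) * _ = _
    field_simp

theorem hess_u : hess (uf F) y = Mf (xp y) e0 (F (rho y) * a (rho y) / uf F y)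
    (F (rho y) * a (rho y) / uf F y * b (rho y) +
      (a (rho y) * y 0) ^ 2 * (F (rho y) / (uf F y * Sf F y)))
    (-(a (rho y) * y 0) * (F (rho y) / (uf F y * Sf F y)))
    (-(a (rho y) * y 0) * (F (rho y) / (uf F y * Sf F y)))
    (F (rho y) / (uf F y * Sf F y) - F (rho y) * a (rho y) / uf F y) := by
  have hu := (h.upos y).ne'
  have hP := ((((h.gF y).mul (h.ga y)).mul ((h.gu y).inv hu)).mul (hasGrad_const (1 / 2)))
  have hQ := hasGrad_t.mul ((h.gu y).inv hu)
  rw [hess_eq (fun y => h.gu y) hP hQ]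
  have hS : Sf F y = uf F y ^ 2 := by rw [h.usq]; rfl
  have hF : F (rho y) = uf F y ^ 2 - y 0 * y 0 := by rw [h.usq]; ring
  rw [hS]
  generalize uf F y = u at *
  generalize F (rho y) = f at *
  subst hF
  congr 1 <;> field_simp <;> ring

theorem posDef : (hess (uf F) y).PosDef := by
  have hu := h.upos y
  have hS := h.Spos y
  have hF := h.Fpos _ (rho_nonneg y)
  have ha := h.apos _ (rho_nonneg y)
  have hw := h.wpos _ (rho_nonneg y)
  rw [h.hess_u]
  refine Mf_posDef (ρ := rho y) rfl (xp_e0 y) e0_e0 (by positivity) (by positivity) ?_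
  have : F (rho y) * a (rho y) / uf F y + (F (rho y) * a (rho y) / uf F y * b (rho y) +
      (a (rho y) * y 0) ^ 2 * (F (rho y) / (uf F y * Sf F y)) -
      (-(a (rho y) * y 0) * (F (rho y) / (uf F y * Sf F y))) ^ 2 /
        (F (rho y) / (uf F y * Sf F y))) * rho y = F (rho y) * a (rho y) / uf F y * w (rho y) := by
    rw [h.weq _ (rho_nonneg y)]
    field_simp
    ring
  rw [this]
  positivity

theorem det_u : (hess (uf F) y).det =
    (F (rho y) * a (rho y) / uf F y) ^ m * (F (rho y) / (uf F y * Sf F y)) * w (rho y) := by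
  have hu := h.upos y
  have hS := h.Spos y
  have hF := h.Fpos _ (rho_nonneg y)
  have ha := h.apos _ (rho_nonneg y)
  rw [h.hess_u, Mf_det (ρ := rho y) rfl (xp_e0 y) e0_e0 (by positivity) (by positivity),
    h.weq _ (rho_nonneg y), pow_succ]
  field_simp
  ring

theorem inv_u : (hess (uf F) y)⁻¹ = Mf (xp y) e0 (uf F y / (F (rho y) * a (rho y)))
    (-(uf F y * b (rho y) / (F (rho y) * a (rho y) * w (rho y))))
    (uf F y * y 0 / (F (rho y) * w (rho y))) (uf F y * y 0 / (F (rho y) * w (rho y)))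
    (uf F y * Sf F y / F (rho y) - uf F y / (F (rho y) * a (rho y)) +
      uf F y * a (rho y) * y 0 ^ 2 * rho y / (F (rho y) * w (rho y))) := by
  have hu := (h.upos y).ne'
  have hS := (h.Spos y).ne'
  have hF := (h.Fpos _ (rho_nonneg y)).ne'
  have ha := (h.apos _ (rho_nonneg y)).ne'
  have hw := (h.wpos _ (rho_nonneg y)).ne'
  apply Matrix.inv_eq_right_inv
  rw [h.hess_u, Mf_mul (ρ := rho y) rfl (xp_e0 y) e0_e0, ← Mf_one (xp y) e0]
  have hb := h.weq _ (rho_nonneg y)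
  congr 1 <;> field_simp <;> (try rw [hb]) <;> ring

end Profile

noncomputable def ell (F a w : ℝ → ℝ) (y : Fin (m + 1) → ℝ) : ℝ :=
  -(((m : ℝ) + 2) / (m + 3)) * (((m : ℝ) + 1) * Real.log (F (rho y)) + m * Real.log (a (rho y)) +
    Real.log (w (rho y)) + -(((m : ℝ) + 3) / 2) * Real.log (Sf F y))

noncomputable def piF (F a w : ℝ → ℝ) (y : Fin (m + 1) → ℝ) : ℝ :=
  -(1 / 2) * a (rho y) * (((m : ℝ) + 1) + (((m : ℝ) + 2) * w (rho y) + rho y * a (rho y) + -1) *
    (rho y * a (rho y) + (m : ℝ) / 2)⁻¹) +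
    ((m : ℝ) + 2) / 2 * (F (rho y) * a (rho y)) * (Sf F y)⁻¹

noncomputable def kaF (F : ℝ → ℝ) (y : Fin (m + 1) → ℝ) : ℝ :=
  ((m : ℝ) + 2) * y 0 * (Sf F y)⁻¹

namespace Profile

variable (h : Profile m F a b w) (y : Fin (m + 1) → ℝ)
include h

theorem rpow_det : (hess (uf F) y).det ^ (-((((m + 1 : ℕ) : ℝ) + 1) / (((m + 1 : ℕ) : ℝ) + 2))) =
    Real.exp (ell F a w y) := by
  have hu := h.upos y
  have hS := h.Spos y
  have hF := h.Fpos _ (rho_nonneg y)
  have ha := h.apos _ (rho_nonneg y)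
  have hw := h.wpos _ (rho_nonneg y)
  have hlu : Real.log (uf F y) = Real.log (Sf F y) / 2 := Real.log_sqrt hS.le
  rw [h.det_u, Real.rpow_def_of_pos (by positivity)]
  congr 1
  rw [Real.log_mul (by positivity) hw.ne', Real.log_mul (by positivity) (by positivity),
    Real.log_pow, Real.log_div (by positivity) hu.ne', Real.log_mul hF.ne' ha.ne',
    Real.log_div hF.ne' (by positivity), Real.log_mul hu.ne' hS.ne', hlu, ell]
  push_cast
  ring

theorem gell (hm : 0 < m) : HasGrad (ell F a w) y (piF F a w y) (kaF F y) := by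
  have hS := (h.Spos y).ne'
  have hF := (h.Fpos _ (rho_nonneg y)).ne'
  have ha := (h.apos _ (rho_nonneg y))
  have hw := (h.wpos _ (rho_nonneg y)).ne'
  have hρ := rho_nonneg y
  have hM : (0 : ℝ) < m := by exact_mod_cast hm
  have hv : rho y * a (rho y) + (m : ℝ) / 2 ≠ 0 := by positivity
  have k := (hasGrad_const (-(((m : ℝ) + 2) / (m + 3)))).mul
    (((((hasGrad_const ((m : ℝ) + 1)).mul ((h.gF y).comp (Real.hasDerivAt_log hF))).add
    ((hasGrad_const (m : ℝ)).mul ((h.ga y).comp (Real.hasDerivAt_log ha.ne')))).add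
    ((h.gw y).comp (Real.hasDerivAt_log hw))).add
    ((hasGrad_const (-(((m : ℝ) + 3) / 2))).mul ((h.gS y).comp (Real.hasDerivAt_log hS))))
  refine HasGrad.congr k ?_ ?_
  · have ha' := ha.ne'
    unfold piF Jf
    rw [div_eq_mul_inv _ (rho y * a (rho y) + (m : ℝ) / 2)]
    generalize (rho y * a (rho y) + (m : ℝ) / 2)⁻¹ = q
    field_simp
    ring
  · unfold kaF
    field_simp
    ring

theorem solves (hm : 0 < m) : SolvesAM (uf (m := m) F) := by
  intro y
  have hS := (h.Spos y).ne'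
  have hF := (h.Fpos _ (rho_nonneg y)).ne'
  have ha := (h.apos _ (rho_nonneg y))
  have hw := (h.wpos _ (rho_nonneg y)).ne'
  have hρ := rho_nonneg y
  have hM : (0 : ℝ) < m := by exact_mod_cast hm
  have hv : rho y * a (rho y) + (m : ℝ) / 2 ≠ 0 := by positivity
  have e : (fun y => (hess (uf (m := m) F) y).det ^
      (-((((m + 1 : ℕ) : ℝ) + 1) / (((m + 1 : ℕ) : ℝ) + 2)))) =
      fun y => Real.exp (ell F a w y) := funext fun y => h.rpow_det y
  rw [e]
  have gW : ∀ y : Fin (m + 1) → ℝ, HasGrad (fun y => Real.exp (ell F a w y)) y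
      (Real.exp (ell F a w y) * piF F a w y) (Real.exp (ell F a w y) * kaF F y) := fun y =>
    (h.gell y hm).comp (Real.hasDerivAt_exp _)
  have gv := (hasGrad_rho (y := y)).mul (h.ga y)
  have gpi : HasGrad (piF F a w) y _ _ :=
    (((hasGrad_const (-(1 / 2))).mul (h.ga y)).mul ((hasGrad_const ((m : ℝ) + 1)).add
      (((((hasGrad_const ((m : ℝ) + 2)).mul (h.gw y)).add gv).add (hasGrad_const (-1))).mul
        ((gv.add (hasGrad_const ((m : ℝ) / 2))).inv hv)))).add
      (((hasGrad_const (((m : ℝ) + 2) / 2)).mul ((h.gF y).mul (h.ga y))).mul ((h.gS y).inv hS))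
  have gka : HasGrad (kaF F) y _ _ :=
    ((hasGrad_const ((m : ℝ) + 2)).mul hasGrad_t).mul ((h.gS y).inv hS)
  rw [hess_eq gW ((gW y).mul gpi) ((gW y).mul gka)]
  have tr : ∀ A B : Matrix (Fin (m + 1)) (Fin (m + 1)) ℝ, ∀ c : ℝ,
      ∑ i, ∑ j, (c • A) i j * B i j = c * (A * Bᵀ).trace := by
    intro A B c
    simp only [Matrix.trace, Matrix.diag, Matrix.mul_apply, transpose_apply, Matrix.smul_apply,
      smul_eq_mul, Finset.mul_sum, mul_assoc]
  rw [tr, h.inv_u, Mf_transpose, Mf_mul (ρ := rho y) rfl (xp_e0 y) e0_e0,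
    Mf_trace (ρ := rho y) rfl (xp_e0 y) e0_e0]
  apply mul_eq_zero_of_right
  have hb := h.weq _ hρ
  have ha' := ha.ne'
  have hM2 : (m : ℝ) + 2 ≠ 0 := by positivity
  have hSd : Sf F y = F (rho y) + y 0 * y 0 := rfl
  clear gpi gka gv tr gW e
  unfold piF kaF Jf
  push_cast
  generalize hV : rho y * a (rho y) + (m : ℝ) / 2 = V at *
  generalize Real.exp (ell F a w y) = W
  generalize uf F y = u
  generalize Sf F y = S at *
  generalize rho y = ρ at *
  generalize F ρ = f at *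
  generalize a ρ = A at *
  generalize b ρ = B at *
  generalize w ρ = Ω at *
  generalize y 0 = t at *
  generalize (m : ℝ) = M at *
  field_simp
  subst hb hSd hV
  ring

end Profile

end Vale.Agent.P252
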